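import Vale.Agent.P369.H327.Cstar

/-!
Good pairs for `F`, `c*` of mixtures, and the two-variable kernel `c`.
-/

namespace Vale.Agent.P369.H327

open Filter Topology Set MeasureTheory intervalIntegral

noncomputable section

variable {X Y : Type*} {T : (X →₀ ℂ) →ₗ[ℂ] (Y → ℂ)}

/-- Network functions of good ratios are good. -/
theorem Good.kf {f : ℝ → ℝ} (hf : KF f) {J : X → ℝ} {J' : Y → ℝ} {u : X → ℝ} {v : Y → ℝ}
    (h1 : Good T J J') (h : Good T (fun x => J x * u x) (fun y => J' y * v y))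
    (hJ : ∀ x, 0 < J x) (hJ' : ∀ y, 0 ≤ J' y) (hu : ∀ x, u x ∈ Ioc (0 : ℝ) 1)
    (hv : ∀ y, v y ∈ Ioc (0 : ℝ) 1) :
    Good T (fun x => J x * f (u x)) (fun y => J' y * f (v y)) := by
  induction hf with
  | one => exact h1.congr (fun x => (mul_one _).symm) (fun y => mul_one _)
  | id => exact h
  | add _ _ i1 i2 => exact (i1.add i2).congr (fun x => by ring) (fun y => by ring)
  | smul ha _ i1 => exact (i1.smul ha.le).congr (fun x => by ring) (fun y => by ring)
  | @par f g k1 k2 i1 i2 =>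
    refine (i1.par i2 (fun x => mul_pos (hJ x) (k1.pos _ (hu x)))
      (fun x => mul_pos (hJ x) (k2.pos _ (hu x))) (fun y => mul_nonneg (hJ' y) (k1.pos _ (hv y)).le)
      (fun y => mul_nonneg (hJ' y) (k2.pos _ (hv y)).le)).congr (fun x => ?_) (fun y => ?_)
    · have a := hJ x
      have b := k1.pos _ (hu x)
      have c := k2.pos _ (hu x)
      unfold H327.par
      field_simp
    · rcases (hJ' y).eq_or_lt with a | a
      · rw [← a]; simp [H327.par]
      · have b := k1.pos _ (hv y)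
        have c := k2.pos _ (hv y)
        unfold H327.par
        field_simp
  | lim f g _ h2 _ ih =>
    exact Good.lim ih (fun x => (h2 _ (hu x)).const_mul _) (fun y => (h2 _ (hv y)).const_mul _)

/-- A function that is monotone or antitone on `[0,1]`. -/
def Mon (h : ℝ → ℝ) : Prop := MonotoneOn h (Icc 0 1) ∨ AntitoneOn h (Icc 0 1)

theorem riemann {h : ℝ → ℝ} (hh : Mon h) :
    Tendsto (fun n : ℕ => (∑ i ∈ Finset.range (n + 1), h (((i : ℕ) : ℝ) / ((n : ℝ) + 1))) /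
      ((n : ℝ) + 1)) atTop (𝓝 (∫ m in (0 : ℝ)..1, h m)) := by
  rcases hh with hh | hh
  · have h1 := riemann_antitone (h := fun m => - h m) hh.neg
    have h2 := h1.neg
    simp only [intervalIntegral.integral_neg, Finset.sum_neg_distrib, neg_div, neg_neg] at h2
    exact h2
  · exact riemann_antitone hh

theorem node_mem {n i : ℕ} (hi : i ∈ Finset.range (n + 1)) :
    ((i : ℕ) : ℝ) / ((n : ℝ) + 1) ∈ Icc (0 : ℝ) 1 := by
  refine ⟨by positivity, (div_le_one (by positivity)).2 ?_⟩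
  have := Finset.mem_range.1 hi
  exact_mod_cast this.le

/-- The integral of a positive monotone function is positive. -/
theorem integral_pos_of_Mon {h : ℝ → ℝ} (hh : Mon h) (hp : ∀ m ∈ Icc (0 : ℝ) 1, 0 < h m) :
    0 < ∫ m in (0 : ℝ)..1, h m := by
  have h0 := hp 0 (left_mem_Icc.2 zero_le_one)
  have h1 := hp 1 (right_mem_Icc.2 zero_le_one)
  have h2 : 0 < min (h 0) (h 1) := lt_min h0 h1
  refine h2.trans_le (ge_of_tendsto' (riemann hh) fun n => ?_)
  rw [le_div_iff₀ (by positivity)]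
  have h3 : ∀ i ∈ Finset.range (n + 1), min (h 0) (h 1) ≤ h (((i : ℕ) : ℝ) / ((n : ℝ) + 1)) := by
    intro i hi
    have hm := node_mem hi
    rcases hh with hh | hh
    · exact (min_le_left _ _).trans (hh (left_mem_Icc.2 zero_le_one) hm hm.1)
    · exact (min_le_right _ _).trans (hh hm (right_mem_Icc.2 zero_le_one) hm.2)
  have h4 := Finset.sum_le_sum h3
  rw [Finset.sum_const, Finset.card_range, nsmul_eq_mul] at h4
  refine le_trans (le_of_eq ?_) h4
  push_cast; ring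

/-- Finite sums of good pairs. -/
theorem Good.fsum {ι : Type*} {s : Finset ι} {φ : ι → X → ℝ} {ψ : ι → Y → ℝ}
    (h : ∀ i ∈ s, Good T (φ i) (ψ i)) :
    Good T (fun x => ∑ i ∈ s, φ i x) (fun y => ∑ i ∈ s, ψ i y) := by
  classical
  induction s using Finset.induction_on with
  | empty =>
    intro z t
    simp [QF]
  | insert a s ha ih =>
    simp only [Finset.sum_insert ha]
    exact (h a (Finset.mem_insert_self _ _)).add (ih fun i hi => h i (Finset.mem_insert_of_mem hi))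

theorem par_inv {a b : ℝ} (ha : 0 < a) (hb : 0 < b) : par a b = (a⁻¹ + b⁻¹)⁻¹ := by
  unfold par; field_simp; ring

/-- Finite series connections of good pairs. -/
theorem Good.fser {ι : Type*} {s : Finset ι} (hs : s.Nonempty) {J : X → ℝ} {J' : Y → ℝ}
    {α : ι → X → ℝ} {β : ι → Y → ℝ} (h : ∀ i ∈ s, Good T (fun x => J x * α i x)
      (fun y => J' y * β i y)) (hJ : ∀ x, 0 < J x) (hJ' : ∀ y, 0 ≤ J' y)
    (hα : ∀ i ∈ s, ∀ x, 0 < α i x) (hβ : ∀ i ∈ s, ∀ y, 0 < β i y) :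
    Good T (fun x => J x * (∑ i ∈ s, (α i x)⁻¹)⁻¹) (fun y => J' y * (∑ i ∈ s, (β i y)⁻¹)⁻¹) := by
  classical
  induction hs using Finset.Nonempty.cons_induction with
  | singleton a =>
    refine (h a (by simp)).congr (fun x => ?_) (fun y => ?_) <;> simp
  | cons a s ha hs ih =>
    have i1 := h a (by simp)
    have i2 := ih (fun i hi => h i (by simp [hi])) (fun i hi => hα i (by simp [hi]))
      (fun i hi => hβ i (by simp [hi]))
    have pα : ∀ x, 0 < ∑ i ∈ s, (α i x)⁻¹ := fun x =>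
      Finset.sum_pos (fun i hi => inv_pos.2 (hα i (by simp [hi]) x)) hs
    have pβ : ∀ y, 0 < ∑ i ∈ s, (β i y)⁻¹ := fun y =>
      Finset.sum_pos (fun i hi => inv_pos.2 (hβ i (by simp [hi]) y)) hs
    refine (i1.par i2 (fun x => mul_pos (hJ x) (hα a (by simp) x))
      (fun x => mul_pos (hJ x) (inv_pos.2 (pα x)))
      (fun y => mul_nonneg (hJ' y) (hβ a (by simp) y).le)
      (fun y => mul_nonneg (hJ' y) (inv_pos.2 (pβ y)).le)).congr (fun x => ?_) (fun y => ?_)
    · have a1 := hJ x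
      have a2 := hα a (by simp) x
      have a3 := pα x
      rw [Finset.sum_cons]
      generalize (∑ i ∈ s, (α i x)⁻¹) = S at a3 ⊢
      unfold H327.par
      field_simp
      ring
    · rw [Finset.sum_cons]
      rcases (hJ' y).eq_or_lt with a1 | a1
      · rw [← a1]; simp [H327.par]
      · have a2 := hβ a (by simp) y
        have a3 := pβ y
        generalize (∑ i ∈ s, (β i y)⁻¹) = S at a3 ⊢
        unfold H327.par
        field_simp
        ring

/-- Continuous series connections of good pairs. -/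
theorem Good.ser {J : X → ℝ} {J' : Y → ℝ} {α : ℝ → X → ℝ} {β : ℝ → Y → ℝ}
    (h : ∀ m ∈ Icc (0 : ℝ) 1, Good T (fun x => J x * α m x) (fun y => J' y * β m y))
    (hJ : ∀ x, 0 < J x) (hJ' : ∀ y, 0 ≤ J' y) (hα : ∀ m ∈ Icc (0 : ℝ) 1, ∀ x, 0 < α m x)
    (hβ : ∀ m ∈ Icc (0 : ℝ) 1, ∀ y, 0 < β m y) (mα : ∀ x, Mon fun m => (α m x)⁻¹)
    (mβ : ∀ y, Mon fun m => (β m y)⁻¹) :
    Good T (fun x => J x * (∫ m in (0 : ℝ)..1, (α m x)⁻¹)⁻¹)
      (fun y => J' y * (∫ m in (0 : ℝ)..1, (β m y)⁻¹)⁻¹) := by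
  have pα : ∀ x, 0 < ∫ m in (0 : ℝ)..1, (α m x)⁻¹ := fun x =>
    integral_pos_of_Mon (mα x) fun m hm => inv_pos.2 (hα m hm x)
  have pβ : ∀ y, 0 < ∫ m in (0 : ℝ)..1, (β m y)⁻¹ := fun y =>
    integral_pos_of_Mon (mβ y) fun m hm => inv_pos.2 (hβ m hm y)
  refine Good.lim (φ := fun n x => J x * ((∑ i ∈ Finset.range (n + 1),
    (α (((i : ℕ) : ℝ) / ((n : ℝ) + 1)) x)⁻¹) / ((n : ℝ) + 1))⁻¹)
    (ψ := fun n y => J' y * ((∑ i ∈ Finset.range (n + 1),
    (β (((i : ℕ) : ℝ) / ((n : ℝ) + 1)) y)⁻¹) / ((n : ℝ) + 1))⁻¹) (fun n => ?_)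
    (fun x => ((riemann (mα x)).inv₀ (pα x).ne').const_mul _)
    (fun y => ((riemann (mβ y)).inv₀ (pβ y).ne').const_mul _)
  have hn : (0 : ℝ) < (n : ℝ) + 1 := by positivity
  have h1 := Good.fser (s := Finset.range (n + 1)) (by simp)
    (α := fun i x => α (((i : ℕ) : ℝ) / ((n : ℝ) + 1)) x)
    (β := fun i y => β (((i : ℕ) : ℝ) / ((n : ℝ) + 1)) y)
    (fun i hi => h _ (node_mem hi)) hJ hJ' (fun i hi x => hα _ (node_mem hi) x)
    (fun i hi y => hβ _ (node_mem hi) y)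
  refine (h1.smul hn.le).congr (fun x => ?_) (fun y => ?_)
  · rw [inv_div, div_eq_mul_inv]; ring
  · rw [inv_div, div_eq_mul_inv]; ring

/-- Averages of good pairs. -/
theorem Good.avg {J : X → ℝ} {J' : Y → ℝ} {α : ℝ → X → ℝ} {β : ℝ → Y → ℝ}
    (h : ∀ m ∈ Icc (0 : ℝ) 1, Good T (fun x => J x * α m x) (fun y => J' y * β m y))
    (mα : ∀ x, Mon fun m => α m x) (mβ : ∀ y, Mon fun m => β m y) :
    Good T (fun x => J x * ∫ m in (0 : ℝ)..1, α m x)
      (fun y => J' y * ∫ m in (0 : ℝ)..1, β m y) := by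
  refine Good.lim (φ := fun n x => J x * ((∑ i ∈ Finset.range (n + 1),
    α (((i : ℕ) : ℝ) / ((n : ℝ) + 1)) x) / ((n : ℝ) + 1)))
    (ψ := fun n y => J' y * ((∑ i ∈ Finset.range (n + 1),
    β (((i : ℕ) : ℝ) / ((n : ℝ) + 1)) y) / ((n : ℝ) + 1))) (fun n => ?_)
    (fun x => (riemann (mα x)).const_mul _) (fun y => (riemann (mβ y)).const_mul _)
  have hn : (0 : ℝ) < (n : ℝ) + 1 := by positivity
  have h1 := Good.fsum (s := Finset.range (n + 1))
    (φ := fun i x => J x * α (((i : ℕ) : ℝ) / ((n : ℝ) + 1)) x)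
    (ψ := fun i y => J' y * β (((i : ℕ) : ℝ) / ((n : ℝ) + 1)) y)
    (fun i hi => h _ (node_mem hi))
  refine (h1.smul (inv_pos.2 hn).le).congr (fun x => ?_) (fun y => ?_)
  · rw [← Finset.mul_sum, div_eq_mul_inv]; ring
  · rw [← Finset.mul_sum, div_eq_mul_inv]; ring

end

end Vale.Agent.P369.H327
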