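import Vale.Agent.P369.H327.Hyp

/-!
The function `c*(F) = F (q-1) / (q-F)` is a network function of `F`.
-/

namespace Vale.Agent.P369.H327

open Filter Topology Set MeasureTheory intervalIntegral

noncomputable section

/-- The iteration. -/
def fk : ℕ → ℝ → ℝ
  | 0 => fun _ => 1
  | k + 1 => fun x => (∫ m in (0 : ℝ)..1, (2 * (((1 - m) * x + m) / (1 + fk k ((1 - m) * x + m))))⁻¹)⁻¹

theorem KF_fk (k : ℕ) : KF (fk k) := by
  induction k with
  | zero => exact KF.one
  | succ k ih =>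
    have h := (KF.smul two_pos (KF.add KF.one ih).dual).ser
    exact h

theorem fk_one (k : ℕ) : fk k 1 = 1 := by
  induction k with
  | zero => rfl
  | succ k ih =>
    have : ∀ m : ℝ, (1 - m) * 1 + m = 1 := fun m => by ring
    simp only [fk, this, ih]
    norm_num

theorem KF.le_at_one {f : ℝ → ℝ} (hf : KF f) (h1 : f 1 ≤ 1) {x : ℝ} (hx : x ∈ Ioc (0 : ℝ) 1) :
    f x ≤ 1 := (hf.mono x hx 1 ⟨one_pos, le_refl _⟩ hx.2).trans h1

/-- The potential `U_f(x) = ∫_x^1 (1 + f s) / (2 s) ds`. -/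
def Uf (f : ℝ → ℝ) (x : ℝ) : ℝ := ∫ s in x..1, (1 + f s) / (2 * s)

theorem Uf_integrand_cont {f : ℝ → ℝ} (hf : KF f) :
    ContinuousOn (fun s => (1 + f s) / (2 * s)) (Ioc 0 1) := by
  refine ContinuousOn.div (continuousOn_const.add hf.continuousOn)
    (continuousOn_const.mul continuousOn_id) fun x hx => ?_
  have := hx.1
  positivity

theorem Uf_integrable {f : ℝ → ℝ} (hf : KF f) {x y : ℝ} (hx : x ∈ Ioc (0 : ℝ) 1)
    (hy : y ∈ Ioc (0 : ℝ) 1) : IntervalIntegrable (fun s => (1 + f s) / (2 * s)) volume x y := by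
  refine ((Uf_integrand_cont hf).mono fun s hs => ?_).intervalIntegrable
  rw [uIcc, mem_Icc] at hs
  exact ⟨(lt_min hx.1 hy.1).trans_le hs.1, hs.2.trans (max_le hx.2 hy.2)⟩

theorem Uf_one (f : ℝ → ℝ) : Uf f 1 = 0 := by simp [Uf]

/-- Derivative of the potential at interior points. -/
theorem hasDerivAt_Uf {f : ℝ → ℝ} (hf : KF f) {x : ℝ} (hx : x ∈ Ioo (0 : ℝ) 1) :
    HasDerivAt (Uf f) (-((1 + f x) / (2 * x))) x := by
  have hx' : x ∈ Ioc (0 : ℝ) 1 := ⟨hx.1, hx.2.le⟩
  have hi := Uf_integrable hf hx' ⟨one_pos, le_refl _⟩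
  have hc : ContinuousAt (fun s => (1 + f s) / (2 * s)) x :=
    (Uf_integrand_cont hf).continuousAt (mem_of_superset (Ioo_mem_nhds hx.1 hx.2)
      fun s hs => ⟨hs.1, hs.2.le⟩)
  have hm : StronglyMeasurableAtFilter (fun s => (1 + f s) / (2 * s)) (𝓝 x) volume :=
    ContinuousOn.stronglyMeasurableAtFilter isOpen_Ioo
      ((Uf_integrand_cont hf).mono fun s hs => ⟨hs.1, hs.2.le⟩) x hx
  exact intervalIntegral.integral_hasDerivAt_left hi hm hc

theorem Uf_continuousWithinAt_one {f : ℝ → ℝ} (hf : KF f) :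
    ContinuousOn (Uf f) (Ioc 0 1) := by
  intro x hx
  have h0 : 0 < x / 2 := by linarith [hx.1]
  have hx2 : x / 2 ∈ Ioc (0 : ℝ) 1 := ⟨h0, by linarith [hx.2, hx.1]⟩
  have hi := Uf_integrable hf hx2 (⟨one_pos, le_refl _⟩ : (1 : ℝ) ∈ Ioc (0 : ℝ) 1)
  have hc : ContinuousOn (Uf f) (uIcc (x / 2) 1) := by
    have h1 := intervalIntegral.continuousOn_primitive_interval' (a := (1 : ℝ)) hi right_mem_uIcc
    refine h1.neg.congr fun s _ => ?_
    simp only [Pi.neg_apply]
    rw [Uf, intervalIntegral.integral_symm]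
  have h1 : ContinuousWithinAt (Uf f) (Icc (x / 2) 1) x := by
    have := hc x (by rw [uIcc_of_le hx2.2]; exact ⟨by linarith [hx.1], hx.2⟩)
    rwa [uIcc_of_le hx2.2] at this
  refine h1.mono_of_mem_nhdsWithin ?_
  have h2 : Ioi (x / 2) ∩ Ioc 0 1 ∈ 𝓝[Ioc 0 1] x :=
    Filter.inter_mem (mem_nhdsWithin_of_mem_nhds (Ioi_mem_nhds (by linarith [hx.1])))
      self_mem_nhdsWithin
  exact mem_of_superset h2 fun s hs => ⟨le_of_lt hs.1, hs.2.2⟩

/-- The value of the next iterate. -/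
theorem fk_succ_eq (k : ℕ) {x : ℝ} (hx : x ∈ Ioo (0 : ℝ) 1) :
    (1 - x) * (fk (k + 1) x)⁻¹ = Uf (fk k) x := by
  have h1 : (0 : ℝ) < 1 - x := sub_pos.2 hx.2
  have e : fk (k + 1) x = (∫ m in (0 : ℝ)..1,
      (2 * (((1 - m) * x + m) / (1 + fk k ((1 - m) * x + m))))⁻¹)⁻¹ := rfl
  rw [e, inv_inv]
  have e2 : ∀ m : ℝ, (2 * (((1 - m) * x + m) / (1 + fk k ((1 - m) * x + m))))⁻¹ =
      (fun s => (1 + fk k s) / (2 * s)) ((1 - x) * m + x) := by
    intro m
    have : (1 - m) * x + m = (1 - x) * m + x := by ring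
    rw [this]
    simp only
    rw [mul_inv, inv_div, ← div_eq_inv_mul, div_div, mul_comm ((1 - x) * m + x) 2]
  simp only [e2]
  rw [intervalIntegral.integral_comp_mul_add (fun s => (1 + fk k s) / (2 * s)) h1.ne' x,
    smul_eq_mul, ← mul_assoc, mul_inv_cancel₀ h1.ne', one_mul]
  unfold Uf
  congr 1 <;> ring

/-- The exact solution in the parameter `z`. -/
def fz (z : ℝ) : ℝ := if z = 0 then 1 else (1 - Fh z) / (qh z - 1)

theorem fz_of_pos {z : ℝ} (hz : 0 < z) : fz z = (1 - Fh z) / (qh z - 1) := if_neg hz.ne'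

theorem fz_pos {z : ℝ} (hz : 0 ≤ z) : 0 < fz z := by
  rcases hz.eq_or_lt with h | h
  · rw [← h]; simp [fz]
  · rw [fz_of_pos h]
    exact div_pos (sub_pos.2 (Fh_lt_one h)) (sub_pos.2 (one_lt_qh h))

theorem fz_le_one {z : ℝ} (hz : 0 ≤ z) : fz z ≤ 1 := by
  rcases hz.eq_or_lt with h | h
  · rw [← h]; simp [fz]
  · rw [fz_of_pos h, div_le_one (sub_pos.2 (one_lt_qh h))]
    have := two_le_qh_add_Fh z
    linarith

/-- Comparison of the potential of an approximate solution with the exact potential. -/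
theorem Uf_sub_le {f : ℝ → ℝ} (hf : KF f) {C : ℝ}
    (h : ∀ z, 0 < z → |f (Fh z) - fz z| ≤ C / Fh z) {z : ℝ} (hz : 0 ≤ z) :
    |Uf f (Fh z) - (qh z - 1)| ≤ C / 2 * (1 / Fh z - 1) := by
  have hcont : ContinuousOn (fun z => Uf f (Fh z)) (Ici 0) :=
    (Uf_continuousWithinAt_one hf).comp continuous_Fh.continuousOn fun z _ => Fh_mem
  have hcF : ContinuousOn (fun z => 1 / Fh z) (Ici 0) :=
    continuousOn_const.div continuous_Fh.continuousOn fun z _ => (Fh_pos z).ne'
  have hdU : ∀ y, 0 < y → HasDerivAt (fun z => Uf f (Fh z) - (qh z - 1))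
      ((qh y - 1) / y * (f (Fh y) - fz y)) y := by
    intro y hy
    have hF : Fh y ∈ Ioo (0 : ℝ) 1 := ⟨Fh_pos y, Fh_lt_one hy⟩
    have h1 := (hasDerivAt_Uf hf hF).comp y (hasDerivAt_Fh hy.ne')
    have h2 := (hasDerivAt_qh hy.ne').sub_const 1
    refine (h1.sub h2).congr_deriv ?_
    rw [fz_of_pos hy]
    have h3 := Fh_pos y
    have h4 := sub_pos.2 (one_lt_qh hy)
    field_simp
    ring
  have hdF : ∀ y, 0 < y → HasDerivAt (fun z => C / 2 * (1 / Fh z - 1))
      ((qh y - 1) / y * (C / Fh y)) y := by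
    intro y hy
    have h3 := Fh_pos y
    have h1 := (((hasDerivAt_Fh hy.ne').inv h3.ne').sub_const 1).const_mul (C / 2)
    simp only [one_div]
    refine h1.congr_deriv ?_
    field_simp
    ring
  have key : ∀ σ : ℝ, |σ| = 1 → 0 ≤ C / 2 * (1 / Fh z - 1) - σ * (Uf f (Fh z) - (qh z - 1)) := by
    intro σ hσ
    have hm : MonotoneOn (fun z => C / 2 * (1 / Fh z - 1) - σ * (Uf f (Fh z) - (qh z - 1)))
        (Ici 0) := by
      refine monotoneOn_of_deriv_nonneg (convex_Ici 0) ?_ ?_ ?_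
      · exact (continuousOn_const.mul (hcF.sub continuousOn_const)).sub
          (continuousOn_const.mul (hcont.sub (continuous_qh.continuousOn.sub continuousOn_const)))
      · intro y hy
        rw [interior_Ici] at hy
        exact ((hdF y hy).sub ((hdU y hy).const_mul σ)).differentiableAt.differentiableWithinAt
      · intro y hy
        rw [interior_Ici] at hy
        have hy' : 0 < y := hy
        have hd := (hdF y hy').sub ((hdU y hy').const_mul σ)
        rw [show (fun z => C / 2 * (1 / Fh z - 1) - σ * (Uf f (Fh z) - (qh z - 1))) =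
          ((fun z => C / 2 * (1 / Fh z - 1)) - fun z => σ * (Uf f (Fh z) - (qh z - 1))) from rfl,
          hd.deriv]
        have h4 : 0 ≤ (qh y - 1) / y := div_nonneg (sub_nonneg.2 (one_le_qh y)) hy'.le
        have h5 : σ * (f (Fh y) - fz y) ≤ C / Fh y := by
          refine (le_abs_self _).trans ?_
          rw [abs_mul, hσ, one_mul]
          exact h y hy'
        have h6 := mul_le_mul_of_nonneg_left h5 h4
        nlinarith
    have h0 := hm (self_mem_Ici) hz hz
    simp only [Fh_zero, qh_zero, Uf_one] at h0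
    linarith
  rw [abs_le]
  have k1 := key 1 (by simp)
  have k2 := key (-1) (by simp)
  constructor <;> linarith

/-- Convergence of the iteration. -/
theorem fk_bound (k : ℕ) : ∀ z, 0 < z →
    |(fk k (Fh z))⁻¹ - (fz z)⁻¹| ≤ (1 / 2) ^ k / Fh z := by
  induction k with
  | zero =>
    intro z hz
    have h1 := fz_pos hz.le
    have h2 := fz_le_one hz.le
    have h3 := Fh_pos z
    have h4 := Fh_mul_qh_le z
    have h5 : (fz z)⁻¹ ≤ 1 / Fh z := by
      rw [fz_of_pos hz, inv_div, div_le_div_iff₀ (sub_pos.2 (Fh_lt_one hz)) h3]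
      linarith
    have h6 : 1 ≤ (fz z)⁻¹ := (one_le_inv₀ h1).2 h2
    have h7 : fk 0 (Fh z) = 1 := rfl
    rw [h7, inv_one, pow_zero, abs_sub_comm, abs_of_nonneg (by linarith)]
    linarith
  | succ k ih =>
    have hKF := KF_fk k
    have hstep : ∀ z, 0 < z → |fk k (Fh z) - fz z| ≤ (1 / 2) ^ k / Fh z := by
      intro z hz
      have a1 := hKF.pos (Fh z) Fh_mem
      have a2 := hKF.le_at_one (fk_one k).le (Fh_mem (z := z))
      have b1 := fz_pos hz.le
      have b2 := fz_le_one hz.le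
      have e : fk k (Fh z) - fz z =
          -(fk k (Fh z) * fz z * ((fk k (Fh z))⁻¹ - (fz z)⁻¹)) := by
        field_simp
        ring
      rw [e, abs_neg, abs_mul, abs_of_pos (mul_pos a1 b1)]
      refine le_trans ?_ (ih z hz)
      have h0 := abs_nonneg ((fk k (Fh z))⁻¹ - (fz z)⁻¹)
      have h1 : fk k (Fh z) * fz z ≤ 1 := by nlinarith
      nlinarith
    intro z hz
    have h1 := Uf_sub_le hKF hstep hz.le
    have hF : Fh z ∈ Ioo (0 : ℝ) 1 := ⟨Fh_pos z, Fh_lt_one hz⟩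
    rw [← fk_succ_eq k hF] at h1
    have h2 : qh z - 1 = (1 - Fh z) * (fz z)⁻¹ := by
      rw [fz_of_pos hz, inv_div]
      have := (sub_pos.2 (Fh_lt_one hz)).ne'
      field_simp
    rw [h2, ← mul_sub, abs_mul, abs_of_pos (sub_pos.2 (Fh_lt_one hz))] at h1
    have h3 : (1 / 2 : ℝ) ^ k / 2 * (1 / Fh z - 1) =
        (1 - Fh z) * ((1 / 2) ^ (k + 1) / Fh z) := by
      have := (Fh_pos z).ne'
      field_simp
      ring
    rw [h3] at h1
    exact le_of_mul_le_mul_left h1 (sub_pos.2 (Fh_lt_one hz))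

theorem fk_tendsto {z : ℝ} (hz : 0 ≤ z) :
    Tendsto (fun k => fk k (Fh z)) atTop (𝓝 (fz z)) := by
  rcases hz.eq_or_lt with h | h
  · rw [← h]
    simp only [Fh_zero, fk_one]
    simp [fz]
  · have h1 : Tendsto (fun k => (fk k (Fh z))⁻¹ - (fz z)⁻¹) atTop (𝓝 0) := by
      have h2 : Tendsto (fun k : ℕ => (1 / 2 : ℝ) ^ k / Fh z) atTop (𝓝 0) := by
        have := (tendsto_pow_atTop_nhds_zero_of_lt_one (r := (1 / 2 : ℝ)) (by norm_num)
          (by norm_num)).div_const (Fh z)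
        simpa using this
      exact squeeze_zero_norm (fun k => fk_bound k z h) h2
    have h3 := (h1.add_const (fz z)⁻¹).inv₀ (by simpa using (fz_pos hz).ne')
    simpa using h3

/-- The limit of the iteration. -/
def finf (x : ℝ) : ℝ := limUnder atTop fun k => fk k x

theorem finf_Fh {z : ℝ} (hz : 0 ≤ z) : finf (Fh z) = fz z := (fk_tendsto hz).limUnder_eq

theorem KF_finf : KF finf := by
  refine KF.lim fk _ KF_fk (fun x hx => ?_) (fun x hx => ?_)
  · obtain ⟨z, hz, rfl⟩ := Fh_surj hx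
    rw [finf_Fh hz]
    exact fk_tendsto hz
  · obtain ⟨z, hz, rfl⟩ := Fh_surj hx
    rw [finf_Fh hz]
    exact fz_pos hz

/-- The function `c*`. -/
def cst (x : ℝ) : ℝ := x / (1 + finf x)

theorem KF_cst : KF cst := (KF.add KF.one KF_finf).dual

theorem cst_Fh {z : ℝ} (hz : 0 < z) : cst (Fh z) = Fh z * (qh z - 1) / (qh z - Fh z) := by
  rw [cst, finf_Fh hz.le, fz_of_pos hz]
  have h1 := sub_pos.2 (one_lt_qh hz)
  have h2 := sub_pos.2 (Fh_lt_qh hz)
  have h3 := Fh_pos z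
  have h4 : 1 + (1 - Fh z) / (qh z - 1) = (qh z - Fh z) / (qh z - 1) := by
    field_simp
    ring
  rw [h4, div_div_eq_mul_div]

theorem cst_inv (x : ℝ) : (cst x)⁻¹ = 2 * ((1 + finf x) / (2 * x)) := by
  unfold cst
  rw [inv_div, mul_div_assoc', mul_div_mul_left _ _ (two_ne_zero)]

/-- The potential of the limit is exactly `q - 1`. -/
theorem Uf_finf {z : ℝ} (hz : 0 ≤ z) : Uf finf (Fh z) = qh z - 1 := by
  have h := Uf_sub_le KF_finf (C := 0) (fun y hy => by rw [finf_Fh hy.le]; simp) hz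
  simp only [zero_div, zero_mul, abs_nonpos_iff] at h
  linarith

end

end Vale.Agent.P369.H327
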