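import Vale.Agent.P369.H327.KF

/-!
Hyperbolic inequalities and the functions `F(z) = z²/sinh² z`, `q(z) = z coth z`.
-/

namespace Vale.Agent.P369.H327

open Filter Topology Set

noncomputable section

theorem nonneg_of_deriv {g g' : ℝ → ℝ} (h0 : 0 ≤ g 0) (hd : ∀ x, HasDerivAt g (g' x) x)
    (hg : ∀ x, 0 < x → 0 ≤ g' x) {x : ℝ} (hx : 0 ≤ x) : 0 ≤ g x := by
  have h1 : MonotoneOn g (Ici 0) := by
    refine monotoneOn_of_deriv_nonneg (convex_Ici 0)
      (fun y _ => (hd y).continuousAt.continuousWithinAt)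
      (fun y _ => (hd y).differentiableAt.differentiableWithinAt) (fun y hy => ?_)
    rw [(hd y).deriv]
    rw [interior_Ici] at hy
    exact hg y hy
  exact h0.trans (h1 (self_mem_Ici) hx hx)

theorem sinh_le_mul_cosh {z : ℝ} (hz : 0 ≤ z) : Real.sinh z ≤ z * Real.cosh z := by
  have h := nonneg_of_deriv (g := fun x => x * Real.cosh x - Real.sinh x)
    (g' := fun x => x * Real.sinh x) (by simp)
    (fun x => by
      have h1 := ((hasDerivAt_id' x).mul (Real.hasDerivAt_cosh x)).sub (Real.hasDerivAt_sinh x)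
      refine h1.congr_deriv ?_
      ring)
    (fun x hx => mul_nonneg hx.le (Real.sinh_nonneg_iff.2 hx.le)) hz
  linarith

theorem mul_cosh_le {z : ℝ} (hz : 0 ≤ z) :
    z * Real.cosh z - Real.sinh z ≤ z ^ 2 / 3 * Real.sinh z := by
  have h := nonneg_of_deriv
    (g := fun x => x ^ 2 / 3 * Real.sinh x - (x * Real.cosh x - Real.sinh x))
    (g' := fun x => x / 3 * (x * Real.cosh x - Real.sinh x)) (by simp)
    (fun x => by
      have h1 := ((hasDerivAt_id' x).mul (Real.hasDerivAt_cosh x)).sub (Real.hasDerivAt_sinh x)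
      have h2 := (((hasDerivAt_id' x).pow 2).div_const 3).mul (Real.hasDerivAt_sinh x)
      refine (h2.sub h1).congr_deriv ?_
      simp only [Pi.pow_apply]
      ring)
    (fun x hx => mul_nonneg (by positivity) (sub_nonneg.2 (sinh_le_mul_cosh hx.le))) hz
  linarith

theorem one_add_le_cosh {z : ℝ} (hz : 0 ≤ z) : 1 + z ^ 2 / 2 ≤ Real.cosh z := by
  have h := nonneg_of_deriv (g := fun x => Real.cosh x - (1 + x ^ 2 / 2))
    (g' := fun x => Real.sinh x - x) (by simp)
    (fun x => by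
      have h2 := (((hasDerivAt_id' x).pow 2).div_const 2).const_add 1
      refine ((Real.hasDerivAt_cosh x).sub h2).congr_deriv ?_
      simp)
    (fun x hx => sub_nonneg.2 (Real.self_le_sinh_iff.2 hx.le)) hz
  linarith

theorem add_cube_le_sinh {z : ℝ} (hz : 0 ≤ z) : z + z ^ 3 / 6 ≤ Real.sinh z := by
  have h := nonneg_of_deriv (g := fun x => Real.sinh x - (x + x ^ 3 / 6))
    (g' := fun x => Real.cosh x - (1 + x ^ 2 / 2)) (by simp)
    (fun x => by
      have h2 := (hasDerivAt_id' x).add (((hasDerivAt_id' x).pow 3).div_const 6)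
      refine ((Real.hasDerivAt_sinh x).sub h2).congr_deriv ?_
      simp
      ring)
    (fun x hx => sub_nonneg.2 (one_add_le_cosh hx.le)) hz
  linarith

/-- `2 sinh² z ≤ z sinh z cosh z + z²`. -/
theorem two_sinh_sq_le {z : ℝ} (hz : 0 ≤ z) :
    2 * Real.sinh z ^ 2 ≤ z * Real.sinh z * Real.cosh z + z ^ 2 := by
  have d2s : ∀ x : ℝ, HasDerivAt (fun x : ℝ => Real.sinh (2 * x)) (2 * Real.cosh (2 * x)) x := by
    intro x
    have := (Real.hasDerivAt_sinh (2 * x)).comp x ((hasDerivAt_id' x).const_mul 2)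
    refine this.congr_deriv ?_
    ring
  have d2c : ∀ x : ℝ, HasDerivAt (fun x : ℝ => Real.cosh (2 * x)) (2 * Real.sinh (2 * x)) x := by
    intro x
    have := (Real.hasDerivAt_cosh (2 * x)).comp x ((hasDerivAt_id' x).const_mul 2)
    refine this.congr_deriv ?_
    ring
  have h2 : ∀ x : ℝ, 0 ≤ x → 0 ≤ 2 * x * Real.sinh (2 * x) + 2 - 2 * Real.cosh (2 * x) := by
    intro x hx
    refine nonneg_of_deriv
      (g := fun x => 2 * x * Real.sinh (2 * x) + 2 - 2 * Real.cosh (2 * x))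
      (g' := fun x => 2 * ((2 * x) * Real.cosh (2 * x) - Real.sinh (2 * x))) (by simp)
      (fun x => ?_) (fun x hx => ?_) hx
    · have h1 := ((((hasDerivAt_id' x).const_mul 2).mul (d2s x)).add_const 2).sub
        ((d2c x).const_mul 2)
      refine h1.congr_deriv ?_
      ring
    · have := sinh_le_mul_cosh (z := 2 * x) (by linarith)
      linarith
  have h1 : ∀ x : ℝ, 0 ≤ x → 0 ≤ x * Real.cosh (2 * x) + 2 * x - 3 / 2 * Real.sinh (2 * x) := by
    intro x hx
    refine nonneg_of_deriv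
      (g := fun x => x * Real.cosh (2 * x) + 2 * x - 3 / 2 * Real.sinh (2 * x))
      (g' := fun x => 2 * x * Real.sinh (2 * x) + 2 - 2 * Real.cosh (2 * x)) (by simp)
      (fun x => ?_) (fun x hx => h2 x hx.le) hx
    have h1 := (((hasDerivAt_id' x).mul (d2c x)).add ((hasDerivAt_id' x).const_mul 2)).sub
      ((d2s x).const_mul (3 / 2))
    refine h1.congr_deriv ?_
    ring
  have h0 : 0 ≤ z * Real.sinh (2 * z) / 2 + z ^ 2 - (Real.cosh (2 * z) - 1) := by
    refine nonneg_of_deriv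
      (g := fun x => x * Real.sinh (2 * x) / 2 + x ^ 2 - (Real.cosh (2 * x) - 1))
      (g' := fun x => x * Real.cosh (2 * x) + 2 * x - 3 / 2 * Real.sinh (2 * x)) (by simp)
      (fun x => ?_) (fun x hx => h1 x hx.le) hz
    have h1 := ((((hasDerivAt_id' x).mul (d2s x)).div_const 2).add ((hasDerivAt_id' x).pow 2)).sub
      ((d2c x).sub_const 1)
    refine h1.congr_deriv ?_
    simp
    ring
  rw [Real.sinh_two_mul, Real.cosh_two_mul, Real.cosh_sq] at h0
  nlinarith

/-- `F(z) = (z / sinh z)²`, with `F(0) = 1`. -/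
def Fh (z : ℝ) : ℝ := if z = 0 then 1 else (z / Real.sinh z) ^ 2

/-- `q(z) = z coth z`, with `q(0) = 1`. -/
def qh (z : ℝ) : ℝ := if z = 0 then 1 else z * Real.cosh z / Real.sinh z

@[simp] theorem Fh_zero : Fh 0 = 1 := if_pos rfl
@[simp] theorem qh_zero : qh 0 = 1 := if_pos rfl

theorem Fh_of_ne {z : ℝ} (h : z ≠ 0) : Fh z = (z / Real.sinh z) ^ 2 := if_neg h
theorem qh_of_ne {z : ℝ} (h : z ≠ 0) : qh z = z * Real.cosh z / Real.sinh z := if_neg h

theorem Fh_neg (z : ℝ) : Fh (-z) = Fh z := by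
  unfold Fh
  simp [Real.sinh_neg, neg_div_neg_eq]

theorem qh_neg (z : ℝ) : qh (-z) = qh z := by
  unfold qh
  simp [Real.sinh_neg, Real.cosh_neg, neg_div_neg_eq]

theorem Fh_abs (z : ℝ) : Fh |z| = Fh z := by
  rcases abs_choice z with h | h <;> rw [h]
  exact Fh_neg z

theorem qh_abs (z : ℝ) : qh |z| = qh z := by
  rcases abs_choice z with h | h <;> rw [h]
  exact qh_neg z

theorem sinh_ne {z : ℝ} (h : z ≠ 0) : Real.sinh z ≠ 0 := fun h0 => h (Real.sinh_eq_zero.1 h0)

theorem Fh_pos (z : ℝ) : 0 < Fh z := by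
  unfold Fh
  split_ifs with h
  · exact one_pos
  · have := sinh_ne h
    positivity

/-- The relation `q² - z² = F`. -/
theorem qh_sq (z : ℝ) : qh z ^ 2 - z ^ 2 = Fh z := by
  rcases eq_or_ne z 0 with h | h
  · subst h; simp
  · rw [qh_of_ne h, Fh_of_ne h]
    have h1 := sinh_ne h
    have h2 := Real.cosh_sq z
    field_simp
    rw [h2]
    ring

theorem Fh_lt_one {z : ℝ} (hz : 0 < z) : Fh z < 1 := by
  rw [Fh_of_ne hz.ne', div_pow, div_lt_one (by have := Real.sinh_pos_iff.2 hz; positivity)]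
  have := Real.self_lt_sinh_iff.2 hz
  nlinarith

theorem Fh_mem {z : ℝ} : Fh z ∈ Ioc (0 : ℝ) 1 := by
  refine ⟨Fh_pos z, ?_⟩
  rw [← Fh_abs]
  rcases (abs_nonneg z).eq_or_lt with h | h
  · rw [← h]; simp
  · exact (Fh_lt_one h).le

theorem one_lt_qh {z : ℝ} (hz : 0 < z) : 1 < qh z := by
  rw [qh_of_ne hz.ne', one_lt_div (Real.sinh_pos_iff.2 hz)]
  have hm : StrictMonoOn (fun x : ℝ => x * Real.cosh x - Real.sinh x) (Ici 0) := by
    refine strictMonoOn_of_deriv_pos (convex_Ici 0) (by fun_prop) (fun y hy => ?_)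
    rw [interior_Ici] at hy
    have hy' : 0 < y := hy
    have h1 := ((hasDerivAt_id' y).mul (Real.hasDerivAt_cosh y)).sub (Real.hasDerivAt_sinh y)
    have h2 : deriv (fun x : ℝ => x * Real.cosh x - Real.sinh x) y = y * Real.sinh y := by
      rw [show (fun x : ℝ => x * Real.cosh x - Real.sinh x) =
        ((fun x => x) * Real.cosh - Real.sinh) from rfl, h1.deriv]
      ring
    rw [h2]
    exact mul_pos hy' (Real.sinh_pos_iff.2 hy')
  have := hm (self_mem_Ici) hz.le hz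
  simp at this
  linarith

theorem one_le_qh (z : ℝ) : 1 ≤ qh z := by
  rw [← qh_abs]
  rcases (abs_nonneg z).eq_or_lt with h | h
  · rw [← h]; simp
  · exact (one_lt_qh h).le

/-- `2 ≤ q + F`. -/
theorem two_le_qh_add_Fh (z : ℝ) : 2 ≤ qh z + Fh z := by
  rw [← qh_abs, ← Fh_abs]
  rcases (abs_nonneg z).eq_or_lt with h | h
  · rw [← h]; norm_num
  · have h1 := two_sinh_sq_le h.le
    have h2 := Real.sinh_pos_iff.2 h
    rw [qh_of_ne h.ne', Fh_of_ne h.ne']
    have : |z| * Real.cosh |z| / Real.sinh |z| + (|z| / Real.sinh |z|) ^ 2 =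
        (|z| * Real.sinh |z| * Real.cosh |z| + |z| ^ 2) / Real.sinh |z| ^ 2 := by
      field_simp
    rw [this, le_div_iff₀ (by positivity)]
    exact h1

theorem Fh_le {z : ℝ} (hz : 0 ≤ z) : Fh z ≤ 1 / (1 + z ^ 2 / 6) ^ 2 := by
  rcases hz.eq_or_lt with h | h
  · subst h; simp
  · have h1 := add_cube_le_sinh hz
    have h2 := Real.sinh_pos_iff.2 h
    rw [Fh_of_ne h.ne', div_pow, div_le_div_iff₀ (by positivity) (by positivity), one_mul,
      ← mul_pow]
    refine pow_le_pow_left₀ (by positivity) ?_ 2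
    nlinarith

/-- `F (q - 1) ≤ 1 - F`. -/
theorem Fh_mul_qh_le (z : ℝ) : Fh z * (qh z - 1) ≤ 1 - Fh z := by
  rw [← qh_abs, ← Fh_abs]
  rcases (abs_nonneg z).eq_or_lt with h | h
  · rw [← h]; norm_num
  · have h1 := mul_cosh_le h.le
    have h2 := Real.sinh_pos_iff.2 h
    have h3 : qh |z| - 1 ≤ |z| ^ 2 / 3 := by
      rw [qh_of_ne h.ne', sub_le_iff_le_add, div_le_iff₀ h2]
      linarith
    have h4 := Fh_le h.le
    have h5 := Fh_pos |z|
    have h6 : Fh |z| * (1 + |z| ^ 2 / 6) ^ 2 ≤ 1 := by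
      rwa [le_div_iff₀ (by positivity)] at h4
    nlinarith [mul_nonneg h5.le (sub_nonneg.2 h3), sq_nonneg (|z| ^ 2)]

theorem hasDerivAt_qh {z : ℝ} (hz : z ≠ 0) : HasDerivAt qh ((qh z - Fh z) / z) z := by
  have h1 := sinh_ne hz
  have h2 := ((hasDerivAt_id' z).mul (Real.hasDerivAt_cosh z)).div (Real.hasDerivAt_sinh z) h1
  have h3 : (fun x : ℝ => x * Real.cosh x / Real.sinh x) =ᶠ[𝓝 z] qh := by
    filter_upwards [isOpen_ne.mem_nhds hz] with x hx
    rw [qh_of_ne hx]
  refine (h2.congr_of_eventuallyEq h3.symm).congr_deriv ?_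
  rw [qh_of_ne hz, Fh_of_ne hz]
  have h4 := Real.cosh_sq z
  simp only [Pi.mul_apply]
  field_simp
  rw [h4]
  ring

theorem hasDerivAt_Fh {z : ℝ} (hz : z ≠ 0) : HasDerivAt Fh (2 * Fh z / z * (1 - qh z)) z := by
  have h1 := hasDerivAt_qh hz
  have h2 := (h1.pow 2).sub ((hasDerivAt_id' z).pow 2)
  have h3 : (fun x : ℝ => qh x ^ 2 - x ^ 2) = Fh := funext qh_sq
  have h4 : HasDerivAt (fun x : ℝ => qh x ^ 2 - x ^ 2)
      (2 * qh z * ((qh z - Fh z) / z) - 2 * z) z := by
    refine h2.congr_deriv ?_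
    simp
  rw [h3] at h4
  refine h4.congr_deriv ?_
  have h5 : z ^ 2 = qh z ^ 2 - Fh z := by rw [← qh_sq z]; ring
  field_simp
  rw [h5]
  ring

theorem continuousAt_sinh_div : Tendsto (fun z : ℝ => Real.sinh z / z) (𝓝[≠] 0) (𝓝 1) := by
  have h := (Real.hasDerivAt_sinh 0).tendsto_slope
  rw [Real.cosh_zero] at h
  refine h.congr' ?_
  filter_upwards [self_mem_nhdsWithin] with z _
  rw [slope_def_field, Real.sinh_zero, sub_zero, sub_zero]

theorem continuous_Fh : Continuous Fh := by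
  rw [continuous_iff_continuousAt]
  intro z
  rcases eq_or_ne z 0 with h | h
  · subst h
    rw [continuousAt_iff_punctured_nhds, Fh_zero]
    have h1 := (continuousAt_sinh_div.inv₀ one_ne_zero).pow 2
    rw [inv_one, one_pow] at h1
    refine h1.congr' ?_
    filter_upwards [self_mem_nhdsWithin] with x hx
    rw [Fh_of_ne hx, inv_div]
  · exact (hasDerivAt_Fh h).continuousAt

theorem continuous_qh : Continuous qh := by
  rw [continuous_iff_continuousAt]
  intro z
  rcases eq_or_ne z 0 with h | h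
  · subst h
    rw [continuousAt_iff_punctured_nhds, qh_zero]
    have h1 := continuousAt_sinh_div.inv₀ one_ne_zero
    have h2 : Tendsto Real.cosh (𝓝[≠] 0) (𝓝 1) := by
      have := Real.continuous_cosh.tendsto 0
      rw [Real.cosh_zero] at this
      exact this.mono_left nhdsWithin_le_nhds
    have h3 := h1.mul h2
    rw [inv_one, one_mul] at h3
    refine h3.congr' ?_
    filter_upwards [self_mem_nhdsWithin] with x hx
    rw [qh_of_ne hx, inv_div]
    ring
  · exact (hasDerivAt_qh h).continuousAt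

theorem Fh_surj {x : ℝ} (hx : x ∈ Ioc (0 : ℝ) 1) : ∃ z, 0 ≤ z ∧ Fh z = x := by
  obtain ⟨h0, h1⟩ := hx
  set Z : ℝ := 6 / x with hZ
  have hZ0 : 0 < Z := by positivity
  have h2 : Fh Z ≤ x := by
    refine (Fh_le hZ0.le).trans ?_
    rw [div_le_iff₀ (by positivity)]
    have : Z ^ 2 = 36 / x ^ 2 := by rw [hZ]; ring
    rw [this]
    have h3 : (1 : ℝ) ≤ 1 + 36 / x ^ 2 / 6 := by
      have : 0 < 36 / x ^ 2 / 6 := by positivity
      linarith
    have h4 : 6 / x ^ 2 ≤ (1 + 36 / x ^ 2 / 6) ^ 2 := by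
      have e : 36 / x ^ 2 / 6 = 6 / x ^ 2 := by ring
      rw [e] at h3 ⊢
      nlinarith
    calc (1 : ℝ) ≤ 6 / x := by rw [le_div_iff₀ h0]; linarith
      _ = x * (6 / x ^ 2) := by field_simp
      _ ≤ _ := mul_le_mul_of_nonneg_left h4 h0.le
  have h3 := intermediate_value_Icc' hZ0.le continuous_Fh.continuousOn
  obtain ⟨z, hz, hz'⟩ := h3 ⟨h2, by rw [Fh_zero]; exact h1⟩
  exact ⟨z, hz.1, hz'⟩

theorem Fh_strictAnti : StrictAntiOn Fh (Ici 0) := by
  refine strictAntiOn_of_deriv_neg (convex_Ici 0) continuous_Fh.continuousOn fun z hz => ?_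
  rw [interior_Ici] at hz
  have hz' : 0 < z := hz
  rw [(hasDerivAt_Fh hz'.ne').deriv]
  have h1 := Fh_pos z
  have h2 := one_lt_qh hz'
  exact mul_neg_of_pos_of_neg (by positivity) (by linarith)

theorem Fh_lt_qh {z : ℝ} (hz : 0 < z) : Fh z < qh z :=
  (Fh_lt_one hz).trans (one_lt_qh hz)

theorem qh_strictMono : StrictMonoOn qh (Ici 0) := by
  refine strictMonoOn_of_deriv_pos (convex_Ici 0) continuous_qh.continuousOn fun z hz => ?_
  rw [interior_Ici] at hz
  have hz' : 0 < z := hz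
  rw [(hasDerivAt_qh hz'.ne').deriv]
  exact div_pos (sub_pos.2 (Fh_lt_qh hz')) hz'

end

end Vale.Agent.P369.H327
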