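import Vale.Agent.P369.H327.Net

/-!
The class `KF` of network functions on `(0,1]`: generated by `1` and `x` under sums, positive
multiples, parallel sums and pointwise limits.
-/

namespace Vale.Agent.P369.H327

open Filter Topology Set MeasureTheory intervalIntegral

noncomputable section

/-- Network functions of one variable on `(0,1]`. -/
inductive KF : (ℝ → ℝ) → Prop
  | one : KF fun _ => 1
  | id : KF fun x => x
  | add {f g : ℝ → ℝ} : KF f → KF g → KF fun x => f x + g x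
  | smul {f : ℝ → ℝ} {a : ℝ} : 0 < a → KF f → KF fun x => a * f x
  | par {f g : ℝ → ℝ} : KF f → KF g → KF fun x => par (f x) (g x)
  | lim (f : ℕ → ℝ → ℝ) (g : ℝ → ℝ) : (∀ n, KF (f n)) →
      (∀ x ∈ Ioc (0 : ℝ) 1, Tendsto (fun n => f n x) atTop (𝓝 (g x))) →
      (∀ x ∈ Ioc (0 : ℝ) 1, 0 < g x) → KF g

theorem KF.pos {f : ℝ → ℝ} (h : KF f) : ∀ x ∈ Ioc (0 : ℝ) 1, 0 < f x := by
  induction h with
  | one => intro x _; exact one_pos
  | id => intro x hx; exact hx.1
  | add _ _ h1 h2 => intro x hx; exact add_pos (h1 x hx) (h2 x hx)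
  | smul ha _ h1 => intro x hx; exact mul_pos ha (h1 x hx)
  | par _ _ h1 h2 => intro x hx; exact par_pos (h1 x hx) (h2 x hx)
  | lim _ _ _ _ h3 _ => exact h3

theorem KF.congr {f g : ℝ → ℝ} (h : KF f) (hfg : ∀ x ∈ Ioc (0 : ℝ) 1, f x = g x) : KF g :=
  KF.lim (fun _ => f) g (fun _ => h)
    (fun x hx => by rw [hfg x hx]; exact tendsto_const_nhds)
    (fun x hx => by rw [← hfg x hx]; exact h.pos x hx)

theorem par_mono {a b a' b' : ℝ} (ha : 0 < a) (hb : 0 < b) (h1 : a ≤ a') (h2 : b ≤ b') :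
    par a b ≤ par a' b' := by
  unfold par
  rw [div_le_div_iff₀ (by positivity) (by linarith)]
  have h3 : 0 < a' := ha.trans_le h1
  have h4 : 0 < b' := hb.trans_le h2
  nlinarith [mul_nonneg (mul_nonneg ha.le h3.le) (sub_nonneg.2 h2),
    mul_nonneg (mul_nonneg hb.le h4.le) (sub_nonneg.2 h1)]

/-- Network functions are nondecreasing. -/
theorem KF.mono {f : ℝ → ℝ} (h : KF f) :
    ∀ x ∈ Ioc (0 : ℝ) 1, ∀ y ∈ Ioc (0 : ℝ) 1, x ≤ y → f x ≤ f y := by
  induction h with
  | one => intro x _ y _ _; exact le_refl _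
  | id => intro x _ y _ h; exact h
  | add _ _ h1 h2 => intro x hx y hy h; exact add_le_add (h1 x hx y hy h) (h2 x hx y hy h)
  | smul ha _ h1 => intro x hx y hy h; exact mul_le_mul_of_nonneg_left (h1 x hx y hy h) ha.le
  | par k1 k2 h1 h2 =>
    intro x hx y hy h
    exact par_mono (k1.pos x hx) (k2.pos x hx) (h1 x hx y hy h) (h2 x hx y hy h)
  | lim _ _ _ h2 _ ih =>
    intro x hx y hy h
    exact le_of_tendsto_of_tendsto' (h2 x hx) (h2 y hy) fun n => ih n x hx y hy h

/-- Duality: `x / f x` is a network function. -/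
theorem KF.dual {f : ℝ → ℝ} (h : KF f) : KF fun x => x / f x := by
  induction h with
  | one => exact KF.id.congr fun x _ => by simp
  | id => exact KF.one.congr fun x hx => by rw [div_self hx.1.ne']
  | @add f g k1 k2 h1 h2 =>
    refine (KF.par h1 h2).congr fun x hx => ?_
    have a := k1.pos x hx
    have b := k2.pos x hx
    have c := hx.1
    unfold H327.par
    field_simp
    ring
  | @smul f a ha k h1 =>
    refine (KF.smul (inv_pos.2 ha) h1).congr fun x hx => ?_
    have b := k.pos x hx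
    field_simp
  | @par f g k1 k2 h1 h2 =>
    refine (KF.add h1 h2).congr fun x hx => ?_
    have a := k1.pos x hx
    have b := k2.pos x hx
    have c := hx.1
    unfold H327.par
    field_simp
    ring
  | lim f g k h2 h3 ih =>
    refine KF.lim (fun n x => x / f n x) _ ih (fun x hx => ?_) (fun x hx => ?_)
    · exact tendsto_const_nhds.div (h2 x hx) (h3 x hx).ne'
    · exact div_pos hx.1 (h3 x hx)

theorem par_tendsto {a b : ℕ → ℝ} {A B : ℝ} (ha : Tendsto a atTop (𝓝 A))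
    (hb : Tendsto b atTop (𝓝 B)) (h : A + B ≠ 0) :
    Tendsto (fun n => par (a n) (b n)) atTop (𝓝 (par A B)) :=
  (ha.mul hb).div (ha.add hb) h

/-- Composition of network functions. -/
theorem KF.comp {f : ℝ → ℝ} (h : KF f) {g : ℝ → ℝ} (hg : KF g)
    (h1 : ∀ x ∈ Ioc (0 : ℝ) 1, g x ≤ 1) : KF fun x => f (g x) := by
  induction h with
  | one => exact KF.one
  | id => exact hg
  | add _ _ h1 h2 => exact KF.add h1 h2
  | smul ha _ h1 => exact KF.smul ha h1
  | par _ _ h1 h2 => exact KF.par h1 h2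
  | lim f k _ h2 h3 ih =>
    exact KF.lim (fun n x => f n (g x)) _ ih (fun x hx => h2 _ ⟨hg.pos x hx, h1 x hx⟩)
      (fun x hx => h3 _ ⟨hg.pos x hx, h1 x hx⟩)

/-- The affine function `(1-m) x + m`. -/
theorem KF.affine {m : ℝ} (h0 : 0 ≤ m) (h1 : m ≤ 1) : KF fun x => (1 - m) * x + m := by
  rcases h0.eq_or_lt with h | h
  · subst h; exact KF.id.congr fun x _ => by ring
  · rcases h1.eq_or_lt with h' | h'
    · subst h'; exact KF.one.congr fun x _ => by ring
    · exact (KF.add (KF.smul (sub_pos.2 h') KF.id) (KF.smul h KF.one)).congr fun x _ => by ring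

theorem affine_mem {m x : ℝ} (h0 : 0 ≤ m) (h1 : m ≤ 1) (hx : x ∈ Ioc (0 : ℝ) 1) :
    (1 - m) * x + m ∈ Ioc (0 : ℝ) 1 := by
  obtain ⟨a, b⟩ := hx
  constructor
  · nlinarith [mul_nonneg (sub_nonneg.2 h1) a.le]
  · nlinarith

/-- Finite sums. -/
theorem KF.fsum {ι : Type*} {s : Finset ι} (hs : s.Nonempty) {f : ι → ℝ → ℝ}
    (h : ∀ i ∈ s, KF (f i)) : KF fun x => ∑ i ∈ s, f i x := by
  classical
  induction hs using Finset.Nonempty.cons_induction with
  | singleton a => simpa using h a (by simp)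
  | cons a s ha hs ih =>
    simp only [Finset.sum_cons]
    exact KF.add (h a (by simp)) (ih fun i hi => h i (by simp [hi]))

/-- Finite series connections. -/
theorem KF.fser {ι : Type*} {s : Finset ι} (hs : s.Nonempty) {f : ι → ℝ → ℝ}
    (h : ∀ i ∈ s, KF (f i)) : KF fun x => (∑ i ∈ s, (f i x)⁻¹)⁻¹ := by
  have h1 := (KF.fsum hs fun i hi => (h i hi).dual).dual
  refine h1.congr fun x hx => ?_
  have hx0 := hx.1
  have : ∑ i ∈ s, x / f i x = x * ∑ i ∈ s, (f i x)⁻¹ := by
    rw [Finset.mul_sum]; exact Finset.sum_congr rfl fun i _ => by rw [div_eq_mul_inv]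
  rw [this]
  rcases eq_or_ne (∑ i ∈ s, (f i x)⁻¹) 0 with h0 | h0
  · rw [h0]; simp
  · field_simp

/-- Riemann sums of monotone functions converge. -/
theorem riemann_antitone {h : ℝ → ℝ} (hh : AntitoneOn h (Icc 0 1)) :
    Tendsto (fun n : ℕ => (∑ i ∈ Finset.range (n + 1), h (((i : ℕ) : ℝ) / ((n : ℝ) + 1))) /
      ((n : ℝ) + 1)) atTop (𝓝 (∫ m in (0 : ℝ)..1, h m)) := by
  have key : ∀ n : ℕ, (∫ m in (0 : ℝ)..1, h m) ≤
      (∑ i ∈ Finset.range (n + 1), h (((i : ℕ) : ℝ) / ((n : ℝ) + 1))) / ((n : ℝ) + 1) ∧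
      (∑ i ∈ Finset.range (n + 1), h (((i : ℕ) : ℝ) / ((n : ℝ) + 1))) / ((n : ℝ) + 1) ≤
      (∫ m in (0 : ℝ)..1, h m) + (h 0 - h 1) / ((n : ℝ) + 1) := by
    intro n
    have hn : (0 : ℝ) < (n : ℝ) + 1 := by positivity
    have hH : AntitoneOn (fun t : ℝ => h (t / ((n : ℝ) + 1))) (Icc 0 (0 + ((n + 1 : ℕ) : ℝ))) := by
      intro a ha b hb hab
      have e : (0 : ℝ) + ((n + 1 : ℕ) : ℝ) = (n : ℝ) + 1 := by push_cast; ring
      rw [e] at ha hb
      refine hh ⟨div_nonneg ha.1 hn.le, (div_le_one hn).2 ha.2⟩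
        ⟨div_nonneg hb.1 hn.le, (div_le_one hn).2 hb.2⟩ ?_
      exact div_le_div_of_nonneg_right hab hn.le
    have i1 := AntitoneOn.integral_le_sum hH
    have i2 := AntitoneOn.sum_le_integral hH
    have e : (∫ x in (0 : ℝ)..0 + ((n + 1 : ℕ) : ℝ), h (x / ((n : ℝ) + 1))) =
        ((n : ℝ) + 1) * ∫ m in (0 : ℝ)..1, h m := by
      rw [intervalIntegral.integral_comp_div (fun m => h m) hn.ne']
      have e1 : (0 : ℝ) / ((n : ℝ) + 1) = 0 := zero_div _
      have e2 : (0 + ((n + 1 : ℕ) : ℝ)) / ((n : ℝ) + 1) = 1 := by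
        push_cast; rw [zero_add, div_self hn.ne']
      rw [e1, e2, smul_eq_mul]
    simp only [zero_add] at i1 i2
    simp only [zero_add] at e
    rw [e] at i1 i2
    constructor
    · rw [le_div_iff₀ hn, mul_comm]
      exact i1
    · rw [div_le_iff₀ hn]
      have e3 : ((∫ m in (0 : ℝ)..1, h m) + (h 0 - h 1) / ((n : ℝ) + 1)) * ((n : ℝ) + 1) =
          ((n : ℝ) + 1) * (∫ m in (0 : ℝ)..1, h m) + (h 0 - h 1) := by
        field_simp
      rw [e3]
      have e4 : ∑ i ∈ Finset.range (n + 1), h (((i : ℕ) : ℝ) / ((n : ℝ) + 1)) =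
          ∑ i ∈ Finset.range (n + 1), h ((((i + 1 : ℕ)) : ℝ) / ((n : ℝ) + 1)) + (h 0 - h 1) := by
        have := Finset.sum_range_succ_sub_sum (f := fun i : ℕ => h (((i : ℕ) : ℝ) / ((n : ℝ) + 1)))
          (n := n + 1)
        have a1 := Finset.sum_range_succ (fun i : ℕ => h (((i : ℕ) : ℝ) / ((n : ℝ) + 1))) (n + 1)
        have a2 := Finset.sum_range_succ' (fun i : ℕ => h (((i : ℕ) : ℝ) / ((n : ℝ) + 1))) (n + 1)
        have a3 : h ((((n + 1 : ℕ)) : ℝ) / ((n : ℝ) + 1)) = h 1 := by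
          push_cast; rw [div_self hn.ne']
        have a4 : h (((0 : ℕ) : ℝ) / ((n : ℝ) + 1)) = h 0 := by simp
        rw [a3] at a1
        rw [a4] at a2
        linarith
      rw [e4]
      linarith
  have t : Tendsto (fun n : ℕ => (∫ m in (0 : ℝ)..1, h m) + (h 0 - h 1) / ((n : ℝ) + 1)) atTop
      (𝓝 (∫ m in (0 : ℝ)..1, h m)) := by
    have h0 : Tendsto (fun n : ℕ => (h 0 - h 1) / ((n : ℝ) + 1)) atTop (𝓝 0) := by
      have := (tendsto_one_div_add_atTop_nhds_zero_nat (𝕜 := ℝ)).const_mul (h 0 - h 1)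
      simpa [mul_one_div, div_eq_mul_inv] using this
    simpa using h0.const_add (∫ m in (0 : ℝ)..1, h m)
  exact tendsto_of_tendsto_of_tendsto_of_le_of_le tendsto_const_nhds t
    (fun n => (key n).1) (fun n => (key n).2)

/-- The resistance profile of a network function is antitone along the segment to `1`. -/
theorem KF.antitone_seg {f : ℝ → ℝ} (hf : KF f) {x : ℝ} (hx : x ∈ Ioc (0 : ℝ) 1) :
    AntitoneOn (fun m : ℝ => (f ((1 - m) * x + m))⁻¹) (Icc 0 1) := by
  intro a ha b hb hab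
  have h1 := affine_mem ha.1 ha.2 hx
  have h2 := affine_mem hb.1 hb.2 hx
  refine inv_anti₀ (hf.pos _ h1) (hf.mono _ h1 _ h2 ?_)
  nlinarith [hx.2]

theorem KF.seg_pos {f : ℝ → ℝ} (hf : KF f) {x : ℝ} (hx : x ∈ Ioc (0 : ℝ) 1) :
    0 < ∫ m in (0 : ℝ)..1, (f ((1 - m) * x + m))⁻¹ := by
  have ha := hf.antitone_seg hx
  have h1 : (0 : ℝ) < (f 1)⁻¹ := inv_pos.2 (hf.pos 1 ⟨one_pos, le_refl _⟩)
  refine h1.trans_le (ge_of_tendsto' (riemann_antitone ha) fun n => ?_)
  rw [le_div_iff₀ (by positivity)]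
  have h2 : ∀ i ∈ Finset.range (n + 1), (f 1)⁻¹ ≤
      (fun m : ℝ => (f ((1 - m) * x + m))⁻¹) (((i : ℕ) : ℝ) / ((n : ℝ) + 1)) := by
    intro i hi
    have hi' : ((i : ℕ) : ℝ) / ((n : ℝ) + 1) ∈ Icc (0 : ℝ) 1 := by
      refine ⟨by positivity, (div_le_one (by positivity)).2 ?_⟩
      have := Finset.mem_range.1 hi
      exact_mod_cast this.le
    have := ha hi' (right_mem_Icc.2 zero_le_one) hi'.2
    simpa using this
  have h3 := Finset.sum_le_sum h2
  rw [Finset.sum_const, Finset.card_range, nsmul_eq_mul] at h3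
  refine le_trans (le_of_eq ?_) h3
  push_cast; ring

/-- Continuous series connection along the segment to `1`. -/
theorem KF.ser {f : ℝ → ℝ} (hf : KF f) :
    KF fun x => (∫ m in (0 : ℝ)..1, (f ((1 - m) * x + m))⁻¹)⁻¹ := by
  refine KF.lim (fun n x => ((∑ i ∈ Finset.range (n + 1),
    (f ((1 - ((i : ℕ) : ℝ) / ((n : ℝ) + 1)) * x + ((i : ℕ) : ℝ) / ((n : ℝ) + 1)))⁻¹) /
      ((n : ℝ) + 1))⁻¹) _ (fun n => ?_) (fun x hx => ?_) (fun x hx => ?_)
  · have hn : (0 : ℝ) < (n : ℝ) + 1 := by positivity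
    have h1 : KF fun x => (∑ i ∈ Finset.range (n + 1),
        (f ((1 - ((i : ℕ) : ℝ) / ((n : ℝ) + 1)) * x + ((i : ℕ) : ℝ) / ((n : ℝ) + 1)))⁻¹)⁻¹ := by
      refine KF.fser (by simp) fun i hi => ?_
      have h0 : (0 : ℝ) ≤ ((i : ℕ) : ℝ) / ((n : ℝ) + 1) := by positivity
      have h1 : ((i : ℕ) : ℝ) / ((n : ℝ) + 1) ≤ 1 := by
        rw [div_le_one hn]
        have := Finset.mem_range.1 hi
        exact_mod_cast this.le
      exact hf.comp (KF.affine h0 h1) fun x hx => (affine_mem h0 h1 hx).2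
    refine (KF.smul hn h1).congr fun x _ => ?_
    rw [inv_div, div_eq_mul_inv]
  · exact (riemann_antitone (hf.antitone_seg hx)).inv₀ (hf.seg_pos hx).ne'
  · exact inv_pos.2 (hf.seg_pos hx)

/-- Network functions satisfy `f y ≤ (y / x) f x` for `x ≤ y`. -/
theorem KF.le_mul {f : ℝ → ℝ} (hf : KF f) {x y : ℝ} (hx : x ∈ Ioc (0 : ℝ) 1)
    (hy : y ∈ Ioc (0 : ℝ) 1) (h : x ≤ y) : f y ≤ y / x * f x := by
  have h1 := hf.dual.mono x hx y hy h
  have a := hf.pos x hx
  have b := hf.pos y hy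
  rw [div_le_div_iff₀ a b] at h1
  rw [div_mul_eq_mul_div, le_div_iff₀ hx.1]
  linarith

theorem KF.continuousOn {f : ℝ → ℝ} (hf : KF f) : ContinuousOn f (Ioc 0 1) := by
  intro x hx
  have hfx := hf.pos x hx
  have key : ∀ y ∈ Ioc (0 : ℝ) 1, |f y - f x| ≤ f x * (|y - x| / min x y) := by
    intro y hy
    have hfy := hf.pos y hy
    rcases le_total x y with h | h
    · have h1 := hf.le_mul hx hy h
      have h2 := hf.mono x hx y hy h
      rw [abs_of_nonneg (sub_nonneg.2 h2), abs_of_nonneg (sub_nonneg.2 h), min_eq_left h]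
      have h3 : y / x * f x = f x + f x * ((y - x) / x) := by
        have := hx.1.ne'
        field_simp
        ring
      linarith
    · have h1 := hf.le_mul hy hx h
      have h2 := hf.mono y hy x hx h
      rw [abs_of_nonpos (sub_nonpos.2 h2), abs_of_nonpos (sub_nonpos.2 h), min_eq_right h]
      have h3 : f x - f y ≤ f y * ((x - y) / y) := by
        have e : x / y * f y = f y + f y * ((x - y) / y) := by
          have := hy.1.ne'
          field_simp
          ring
        linarith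
      have h4 : f y * ((x - y) / y) ≤ f x * ((x - y) / y) :=
        mul_le_mul_of_nonneg_right h2 (div_nonneg (sub_nonneg.2 h) hy.1.le)
      have e1 : -(f y - f x) = f x - f y := by ring
      have e2 : -(y - x) = x - y := by ring
      rw [e1, e2]
      linarith
  have hc : Tendsto (fun y : ℝ => f x * (|y - x| / min x y)) (𝓝[Ioc 0 1] x) (𝓝 0) := by
    have h1 : ContinuousAt (fun y : ℝ => f x * (|y - x| / min x y)) x := by
      refine continuousAt_const.mul (ContinuousAt.div ?_ ?_ ?_)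
      · exact ((continuous_id.sub continuous_const).abs).continuousAt
      · exact (continuous_const.min continuous_id).continuousAt
      · simp [hx.1.ne']
    have h2 := h1.tendsto
    simp only [sub_self, abs_zero, zero_div, mul_zero] at h2
    exact h2.mono_left nhdsWithin_le_nhds
  have h0 : Tendsto (fun y => f y - f x) (𝓝[Ioc 0 1] x) (𝓝 0) := by
    refine squeeze_zero_norm' ?_ hc
    filter_upwards [self_mem_nhdsWithin] with y hy
    rw [Real.norm_eq_abs]
    exact key y hy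
  have := h0.add_const (f x)
  simpa [ContinuousWithinAt] using this

end

end Vale.Agent.P369.H327
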