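import Mathlib

/-!
Network comparison lemmas: `Good T φ ψ` says that the linear map `T` is a contraction from the
weighted quadratic form `φ` to the weighted quadratic form `ψ`.  The class of good pairs is closed
under sums, scaling, parallel sums, limits and bridges.
-/

namespace Vale.Agent.P369.H327

open Filter Topology

noncomputable section

variable {X Y : Type*}

/-- The quadratic form with weights `φ` on finitely supported vectors. -/
def QF (φ : X → ℝ) (z : X →₀ ℂ) : ℝ := z.sum fun x c => φ x * ‖c‖ ^ 2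

theorem QF_eq_sum (φ : X → ℝ) (z : X →₀ ℂ) {S : Finset X} (h : z.support ⊆ S) :
    QF φ z = ∑ x ∈ S, φ x * ‖z x‖ ^ 2 := by
  unfold QF
  rw [Finsupp.sum_of_support_subset z h]
  intro i _
  simp

/-- Multiplication of a finitely supported vector by a real function. -/
def mulF (r : X → ℝ) (z : X →₀ ℂ) : X →₀ ℂ :=
  Finsupp.onFinset z.support (fun x => (r x : ℂ) * z x) (by
    intro x hx
    rw [Finsupp.mem_support_iff]
    intro h0
    exact hx (by rw [h0, mul_zero]))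

@[simp] theorem mulF_apply (r : X → ℝ) (z : X →₀ ℂ) (x : X) : mulF r z x = (r x : ℂ) * z x := rfl

theorem mulF_support (r : X → ℝ) (z : X →₀ ℂ) : (mulF r z).support ⊆ z.support :=
  Finsupp.support_onFinset_subset

theorem QF_mulF (φ r : X → ℝ) (z : X →₀ ℂ) :
    QF φ (mulF r z) = QF (fun x => φ x * r x ^ 2) z := by
  rw [QF_eq_sum φ (mulF r z) (mulF_support r z), QF_eq_sum _ z (le_refl _)]
  refine Finset.sum_congr rfl fun x _ => ?_
  rw [mulF_apply, norm_mul, Complex.norm_real, Real.norm_eq_abs, mul_pow, sq_abs]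
  ring

theorem QF_add (φ φ' : X → ℝ) (z : X →₀ ℂ) :
    QF (fun x => φ x + φ' x) z = QF φ z + QF φ' z := by
  rw [QF_eq_sum _ z (le_refl _), QF_eq_sum _ z (le_refl _), QF_eq_sum _ z (le_refl _),
    ← Finset.sum_add_distrib]
  exact Finset.sum_congr rfl fun x _ => by ring

theorem QF_smul (a : ℝ) (φ : X → ℝ) (z : X →₀ ℂ) :
    QF (fun x => a * φ x) z = a * QF φ z := by
  rw [QF_eq_sum _ z (le_refl _), QF_eq_sum _ z (le_refl _), Finset.mul_sum]
  exact Finset.sum_congr rfl fun x _ => by ring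

theorem QF_mono {φ φ' : X → ℝ} (h : ∀ x, φ x ≤ φ' x) (z : X →₀ ℂ) : QF φ z ≤ QF φ' z := by
  rw [QF_eq_sum _ z (le_refl _), QF_eq_sum _ z (le_refl _)]
  exact Finset.sum_le_sum fun x _ => mul_le_mul_of_nonneg_right (h x) (by positivity)

/-- `T` contracts the form `φ` to the form `ψ` (all finite partial sums). -/
def Good (T : (X →₀ ℂ) →ₗ[ℂ] (Y → ℂ)) (φ : X → ℝ) (ψ : Y → ℝ) : Prop :=
  ∀ (z : X →₀ ℂ) (s : Finset Y), ∑ y ∈ s, ψ y * ‖T z y‖ ^ 2 ≤ QF φ z

variable {T : (X →₀ ℂ) →ₗ[ℂ] (Y → ℂ)}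

theorem Good.mono {φ φ' : X → ℝ} {ψ ψ' : Y → ℝ} (h : Good T φ ψ) (h1 : ∀ x, φ x ≤ φ' x)
    (h2 : ∀ y, ψ' y ≤ ψ y) : Good T φ' ψ' := by
  intro z s
  refine le_trans (Finset.sum_le_sum fun y _ => ?_) ((h z s).trans (QF_mono h1 z))
  exact mul_le_mul_of_nonneg_right (h2 y) (by positivity)

theorem Good.congr {φ φ' : X → ℝ} {ψ ψ' : Y → ℝ} (h : Good T φ ψ) (h1 : ∀ x, φ x = φ' x)
    (h2 : ∀ y, ψ' y = ψ y) : Good T φ' ψ' :=
  h.mono (fun x => (h1 x).le) (fun y => (h2 y).le)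

theorem Good.add {φ φ' : X → ℝ} {ψ ψ' : Y → ℝ} (h : Good T φ ψ) (h' : Good T φ' ψ') :
    Good T (fun x => φ x + φ' x) (fun y => ψ y + ψ' y) := by
  intro z s
  rw [QF_add]
  refine le_trans (le_of_eq ?_) (add_le_add (h z s) (h' z s))
  rw [← Finset.sum_add_distrib]
  exact Finset.sum_congr rfl fun y _ => by ring

theorem Good.smul {φ : X → ℝ} {ψ : Y → ℝ} {a : ℝ} (ha : 0 ≤ a) (h : Good T φ ψ) :
    Good T (fun x => a * φ x) (fun y => a * ψ y) := by
  intro z s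
  rw [QF_smul]
  refine le_trans (le_of_eq ?_) (mul_le_mul_of_nonneg_left (h z s) ha)
  rw [Finset.mul_sum]
  exact Finset.sum_congr rfl fun y _ => by ring

theorem Good.lim {φ : ℕ → X → ℝ} {ψ : ℕ → Y → ℝ} {φ' : X → ℝ} {ψ' : Y → ℝ}
    (h : ∀ n, Good T (φ n) (ψ n)) (h1 : ∀ x, Tendsto (fun n => φ n x) atTop (𝓝 (φ' x)))
    (h2 : ∀ y, Tendsto (fun n => ψ n y) atTop (𝓝 (ψ' y))) : Good T φ' ψ' := by
  intro z s
  have t1 : Tendsto (fun n => ∑ y ∈ s, ψ n y * ‖T z y‖ ^ 2) atTop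
      (𝓝 (∑ y ∈ s, ψ' y * ‖T z y‖ ^ 2)) :=
    tendsto_finsetSum _ fun y _ => (h2 y).mul_const _
  have t2 : Tendsto (fun n => QF (φ n) z) atTop (𝓝 (QF φ' z)) := by
    simp only [QF_eq_sum _ z (le_refl z.support)]
    exact tendsto_finsetSum _ fun x _ => (h1 x).mul_const _
  exact le_of_tendsto_of_tendsto' t1 t2 fun n => h n z s

/-- Parallel sum of two conductances. -/
def par (a b : ℝ) : ℝ := a * b / (a + b)

theorem par_pos {a b : ℝ} (ha : 0 < a) (hb : 0 < b) : 0 < par a b := by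
  unfold par; positivity

theorem par_nonneg {a b : ℝ} (ha : 0 ≤ a) (hb : 0 ≤ b) : 0 ≤ par a b := by
  unfold par; positivity

/-- The parallel sum is a lower bound for the energy of every splitting. -/
theorem par_le_energy {a b : ℝ} (ha : 0 ≤ a) (hb : 0 ≤ b) (u v : ℂ) :
    par a b * ‖u + v‖ ^ 2 ≤ a * ‖u‖ ^ 2 + b * ‖v‖ ^ 2 := by
  have h1 : ‖u + v‖ ^ 2 ≤ (‖u‖ + ‖v‖) ^ 2 := pow_le_pow_left₀ (norm_nonneg _) (norm_add_le u v) 2
  refine le_trans (mul_le_mul_of_nonneg_left h1 (par_nonneg ha hb)) ?_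
  unfold par
  rcases (add_nonneg ha hb).eq_or_lt with h0 | h0
  · rw [← h0, div_zero, zero_mul]; positivity
  · rw [div_mul_eq_mul_div, div_le_iff₀ h0]
    nlinarith [sq_nonneg (a * ‖u‖ - b * ‖v‖), norm_nonneg u, norm_nonneg v]

theorem Good.par {φ φ' : X → ℝ} {ψ ψ' : Y → ℝ} (h : Good T φ ψ) (h' : Good T φ' ψ')
    (p1 : ∀ x, 0 < φ x) (p2 : ∀ x, 0 < φ' x) (q1 : ∀ y, 0 ≤ ψ y) (q2 : ∀ y, 0 ≤ ψ' y) :
    Good T (fun x => par (φ x) (φ' x)) (fun y => par (ψ y) (ψ' y)) := by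
  intro z s
  set z1 : X →₀ ℂ := mulF (fun x => φ' x / (φ x + φ' x)) z with hz1
  set z2 : X →₀ ℂ := mulF (fun x => φ x / (φ x + φ' x)) z with hz2
  have hz : z = z1 + z2 := by
    ext x
    rw [Finsupp.add_apply, hz1, hz2, mulF_apply, mulF_apply, ← add_mul, ← Complex.ofReal_add,
      ← add_div, add_comm (φ' x), div_self (add_pos (p1 x) (p2 x)).ne']
    simp
  have hT : ∀ y, T z y = T z1 y + T z2 y := by
    intro y
    conv_lhs => rw [hz]
    rw [map_add]; rfl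
  have e1 : QF φ z1 + QF φ' z2 = QF (fun x => H327.par (φ x) (φ' x)) z := by
    rw [hz1, hz2, QF_mulF, QF_mulF, ← QF_add]
    congr 1
    funext x
    have := (add_pos (p1 x) (p2 x)).ne'
    unfold H327.par
    field_simp
    ring
  calc ∑ y ∈ s, H327.par (ψ y) (ψ' y) * ‖T z y‖ ^ 2
      ≤ ∑ y ∈ s, (ψ y * ‖T z1 y‖ ^ 2 + ψ' y * ‖T z2 y‖ ^ 2) := by
        refine Finset.sum_le_sum fun y _ => ?_
        rw [hT y]
        exact par_le_energy (q1 y) (q2 y) _ _
    _ ≤ QF φ z1 + QF φ' z2 := by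
        rw [Finset.sum_add_distrib]
        exact add_le_add (h z1 s) (h' z2 s)
    _ = _ := e1

/-- The energy of a bridge with source potential `ζ` and ground `0`. -/
def energy (p1 r1 p0 r0 c : ℝ) (ζ ξ υ : ℂ) : ℝ :=
  p1 * ‖ξ‖ ^ 2 + r1 * ‖ζ - ξ‖ ^ 2 + p0 * ‖υ‖ ^ 2 + r0 * ‖ζ - υ‖ ^ 2 + c * ‖ξ - υ‖ ^ 2

/-- `g` is a lower bound of the energy of the bridge. -/
def BridgeLB (p1 r1 p0 r0 c g : ℝ) : Prop :=
  ∀ ζ ξ υ : ℂ, g * ‖ζ‖ ^ 2 ≤ energy p1 r1 p0 r0 c ζ ξ υ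

/-- The bridge rule: insert arbitrary real potentials `x`, `y` on the source side. -/
theorem Good.bridge {p1 r1 p0 r0 c : X → ℝ} {P1 R1 P0 R0 C g : Y → ℝ}
    (h1 : Good T p1 P1) (h2 : Good T r1 R1) (h3 : Good T p0 P0) (h4 : Good T r0 R0)
    (h5 : Good T c C) (hg : ∀ i, BridgeLB (P1 i) (R1 i) (P0 i) (R0 i) (C i) (g i))
    (x y : X → ℝ) :
    Good T (fun i => p1 i * x i ^ 2 + r1 i * (1 - x i) ^ 2 + p0 i * y i ^ 2 +
      r0 i * (1 - y i) ^ 2 + c i * (x i - y i) ^ 2) g := by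
  intro z s
  have hT1 : ∀ i, T (mulF (fun j => 1 - x j) z) i = T z i - T (mulF x z) i := by
    intro i
    have : mulF (fun j => 1 - x j) z = z - mulF x z := by
      ext j
      rw [Finsupp.sub_apply, mulF_apply, mulF_apply, Complex.ofReal_sub, Complex.ofReal_one]
      ring
    rw [this, map_sub]; rfl
  have hT2 : ∀ i, T (mulF (fun j => 1 - y j) z) i = T z i - T (mulF y z) i := by
    intro i
    have : mulF (fun j => 1 - y j) z = z - mulF y z := by
      ext j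
      rw [Finsupp.sub_apply, mulF_apply, mulF_apply, Complex.ofReal_sub, Complex.ofReal_one]
      ring
    rw [this, map_sub]; rfl
  have hT3 : ∀ i, T (mulF (fun j => x j - y j) z) i = T (mulF x z) i - T (mulF y z) i := by
    intro i
    have : mulF (fun j => x j - y j) z = mulF x z - mulF y z := by
      ext j
      rw [Finsupp.sub_apply, mulF_apply, mulF_apply, mulF_apply, Complex.ofReal_sub]
      ring
    rw [this, map_sub]; rfl
  have a1 := h1 (mulF x z) s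
  have a2 := h2 (mulF (fun j => 1 - x j) z) s
  have a3 := h3 (mulF y z) s
  have a4 := h4 (mulF (fun j => 1 - y j) z) s
  have a5 := h5 (mulF (fun j => x j - y j) z) s
  rw [QF_mulF] at a1 a2 a3 a4 a5
  simp only [hT1] at a2
  simp only [hT2] at a4
  simp only [hT3] at a5
  have e : QF (fun i => p1 i * x i ^ 2 + r1 i * (1 - x i) ^ 2 + p0 i * y i ^ 2 +
      r0 i * (1 - y i) ^ 2 + c i * (x i - y i) ^ 2) z =
      QF (fun i => p1 i * x i ^ 2) z + QF (fun i => r1 i * (1 - x i) ^ 2) z +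
      QF (fun i => p0 i * y i ^ 2) z + QF (fun i => r0 i * (1 - y i) ^ 2) z +
      QF (fun i => c i * (x i - y i) ^ 2) z := by
    rw [← QF_add, ← QF_add, ← QF_add, ← QF_add]
  rw [e]
  refine le_trans ?_ (add_le_add (add_le_add (add_le_add (add_le_add a1 a2) a3) a4) a5)
  rw [← Finset.sum_add_distrib, ← Finset.sum_add_distrib, ← Finset.sum_add_distrib,
    ← Finset.sum_add_distrib]
  refine Finset.sum_le_sum fun i _ => ?_
  exact hg i (T z i) (T (mulF x z) i) (T (mulF y z) i)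

end

end Vale.Agent.P369.H327
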