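import Vale.Agent.P369.H327.Coi

/-!
The operator inequality: the kernel `GW` of the two-variable bridge is good.
-/

namespace Vale.Agent.P369.H327

open Filter Topology Set MeasureTheory intervalIntegral

noncomputable section

variable {X Y : Type*} {T : (X →₀ ℂ) →ₗ[ℂ] (Y → ℂ)}

/-- `p₀(w) = w / (exp w - 1)`. -/
def p0 (w : ℝ) : ℝ := qh (w / 2) - w / 2

/-- `p₁(w) = w exp w / (exp w - 1)`. -/
def p1 (w : ℝ) : ℝ := qh (w / 2) + w / 2

theorem abs_lt_qh (z : ℝ) : |z| < qh z := by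
  have h1 := qh_sq z
  have h2 := Fh_pos z
  have h3 := one_le_qh z
  exact abs_lt_of_sq_lt_sq (by linarith) (by linarith)

theorem p0_pos (w : ℝ) : 0 < p0 w := by
  have := abs_lt.1 (abs_lt_qh (w / 2))
  unfold p0; linarith [this.2]

theorem p1_pos (w : ℝ) : 0 < p1 w := by
  have := abs_lt.1 (abs_lt_qh (w / 2))
  unfold p1; linarith [this.1]

theorem p0_zero : p0 0 = 1 := by simp [p0]
theorem p1_zero : p1 0 = 1 := by simp [p1]
theorem p0_neg (w : ℝ) : p0 (-w) = p1 w := by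
  unfold p0 p1; rw [neg_div, qh_neg]; ring
theorem p1_neg (w : ℝ) : p1 (-w) = p0 w := by
  unfold p0 p1; rw [neg_div, qh_neg]; ring
theorem p1_eq (w : ℝ) : p1 w = p0 w + w := by unfold p0 p1; ring
theorem p0_mul_p1 (w : ℝ) : p0 w * p1 w = Fh (w / 2) := by
  rw [← qh_sq]; unfold p0 p1; ring

theorem p0_eq {w : ℝ} (hw : w ≠ 0) : p0 w = w / (Real.exp w - 1) := by
  have hz : w / 2 ≠ 0 := div_ne_zero hw two_ne_zero
  have h1 := sinh_ne hz
  have h2 : Real.exp w - 1 ≠ 0 := by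
    intro h; exact hw (by simpa using (Real.exp_eq_one_iff w).1 (by linarith))
  rw [p0, qh_of_ne hz, eq_div_iff h2, Real.cosh_eq, Real.sinh_eq]
  rw [Real.sinh_eq] at h1
  have h3 : Real.exp (-(w / 2)) ≠ 0 := (Real.exp_pos _).ne'
  have h4 : Real.exp (w / 2) ≠ 0 := (Real.exp_pos _).ne'
  have h5 : Real.exp (-(w / 2)) = (Real.exp (w / 2))⁻¹ := Real.exp_neg _
  have h6 : Real.exp w = Real.exp (w / 2) ^ 2 := by
    rw [← Real.exp_nat_mul]; congr 1; push_cast; ring
  rw [h5] at h1 ⊢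
  rw [h6] at h2 ⊢
  set e := Real.exp (w / 2)
  have h7 : e - e⁻¹ ≠ 0 := fun h => h1 (by rw [h, zero_div])
  have h8 : e ^ 2 - 1 ≠ 0 := h2
  have h9 : e - e⁻¹ = (e ^ 2 - 1) / e := by field_simp
  rw [h9]
  field_simp
  ring

theorem p1_eq' {w : ℝ} (hw : w ≠ 0) : p1 w = w * Real.exp w / (Real.exp w - 1) := by
  have h2 : Real.exp w - 1 ≠ 0 := by
    intro h; exact hw (by simpa using (Real.exp_eq_one_iff w).1 (by linarith))
  rw [p1_eq, p0_eq hw]
  field_simp
  ring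

theorem p1_eq_exp_mul (w : ℝ) : p1 w = Real.exp w * p0 w := by
  rcases eq_or_ne w 0 with h | h
  · subst h; simp [p0_zero, p1_zero]
  · rw [p1_eq' h, p0_eq h]; ring

/-- `F = ∫ ((1-m)/p₁ + m/p₀)⁻¹ dm`. -/
theorem Fh_eq_integral (w : ℝ) :
    ∫ m in (0 : ℝ)..1, ((1 - m) / p1 w + m / p0 w)⁻¹ = Fh (w / 2) := by
  have a := p0_pos w
  have b := p1_pos w
  rcases eq_or_ne w 0 with h | h
  · subst h; simp [p0_zero, p1_zero]
  · have e : ∀ m : ℝ, ((1 - m) / p1 w + m / p0 w)⁻¹ = Fh (w / 2) * (fun s : ℝ => s⁻¹) (w * m + p0 w) := by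
      intro m
      rw [← p0_mul_p1]
      have : (1 - m) / p1 w + m / p0 w = (w * m + p0 w) / (p0 w * p1 w) := by
        field_simp
        rw [p1_eq w]
        ring
      rw [this, inv_div]
      rfl
    simp only [e]
    rw [intervalIntegral.integral_const_mul,
      intervalIntegral.integral_comp_mul_add (fun s : ℝ => s⁻¹) h (p0 w)]
    simp only [mul_zero, zero_add, mul_one]
    have e2 : w + p0 w = p1 w := by rw [p1_eq]; ring
    rw [e2, integral_inv_of_pos a b, p1_eq_exp_mul, mul_div_assoc, div_self a.ne', mul_one,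
      Real.log_exp, smul_eq_mul, inv_mul_cancel₀ h, mul_one]

theorem Mon_affine (A B : ℝ) : Mon fun m => (1 - m) * A + m * B := by
  rcases le_total A B with h | h
  · left; intro x _ y _ hxy; simp only; nlinarith
  · right; intro x _ y _ hxy; simp only; nlinarith

theorem Mon.inv {h : ℝ → ℝ} (hh : Mon h) (hp : ∀ m ∈ Icc (0 : ℝ) 1, 0 < h m) :
    Mon fun m => (h m)⁻¹ := by
  rcases hh with hh | hh
  · right; intro x hx y hy hxy; exact inv_anti₀ (hp x hx) (hh hx hy hxy)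
  · left; intro x hx y hy hxy; exact inv_anti₀ (hp y hy) (hh hx hy hxy)

theorem Mon.congr {h k : ℝ → ℝ} (hh : Mon h) (e : ∀ m, h m = k m) : Mon k := by
  have : h = k := funext e
  rwa [← this]

/-- Goodness of `F` from goodness of `p₀`, `p₁`. -/
theorem Good.Fh {J : X → ℝ} {J' : Y → ℝ} {w : X → ℝ} {w' : Y → ℝ} (hJ : ∀ x, 0 < J x)
    (hJ' : ∀ y, 0 ≤ J' y) (h1 : Good T (fun x => J x * p1 (w x)) (fun y => J' y * p1 (w' y)))
    (h0 : Good T (fun x => J x * p0 (w x)) (fun y => J' y * p0 (w' y))) :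
    Good T (fun x => J x * H327.Fh (w x / 2)) (fun y => J' y * H327.Fh (w' y / 2)) := by
  have pos : ∀ w : ℝ, ∀ m ∈ Icc (0 : ℝ) 1, 0 < (1 - m) / p1 w + m / p0 w := by
    intro w m hm
    have a := p0_pos w
    have b := p1_pos w
    rcases hm.1.eq_or_lt with h | h
    · rw [← h]; simp [b]
    · have : 0 < m / p0 w := by positivity
      have : 0 ≤ (1 - m) / p1 w := div_nonneg (sub_nonneg.2 hm.2) b.le
      linarith
  have mon : ∀ w : ℝ, Mon fun m : ℝ => ((1 - m) / p1 w + m / p0 w)⁻¹ := fun w =>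
    Mon.inv ((Mon_affine (p1 w)⁻¹ (p0 w)⁻¹).congr fun m => by rw [div_eq_mul_inv, div_eq_mul_inv])
      (pos w)
  have key := Good.avg (T := T) (J := J) (J' := J')
    (α := fun m x => ((1 - m) / p1 (w x) + m / p0 (w x))⁻¹)
    (β := fun m y => ((1 - m) / p1 (w' y) + m / p0 (w' y))⁻¹) (fun m hm => ?_)
    (fun x => mon _) (fun y => mon _)
  · simp only [Fh_eq_integral] at key
    exact key
  · rcases hm.1.eq_or_lt with h | h
    · subst h; exact h1.congr (fun x => by simp) (fun y => by simp)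
    rcases hm.2.eq_or_lt with h' | h'
    · subst h'; exact h0.congr (fun x => by simp) (fun y => by simp)
    have hm' : 0 < 1 - m := sub_pos.2 h'
    refine ((h1.smul (inv_pos.2 hm').le).par (h0.smul (inv_pos.2 h).le)
      (fun x => mul_pos (inv_pos.2 hm') (mul_pos (hJ x) (p1_pos _)))
      (fun x => mul_pos (inv_pos.2 h) (mul_pos (hJ x) (p0_pos _)))
      (fun y => mul_nonneg (inv_pos.2 hm').le (mul_nonneg (hJ' y) (p1_pos _).le))
      (fun y => mul_nonneg (inv_pos.2 h).le (mul_nonneg (hJ' y) (p0_pos _).le))).congr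
      (fun x => ?_) (fun y => ?_)
    · have a := hJ x
      have b := p0_pos (w x)
      have c := p1_pos (w x)
      unfold H327.par
      field_simp
      ring
    · rcases (hJ' y).eq_or_lt with a | a
      · rw [← a]; simp [H327.par]
      · have b := p0_pos (w' y)
        have c := p1_pos (w' y)
        unfold H327.par
        field_simp
        ring

/-- The two-variable kernel `c`. -/
def cc (a b : ℝ) : ℝ := (∫ m in (0 : ℝ)..1, (cst ((1 - m) * a + m * b))⁻¹)⁻¹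

theorem seg_mem {a b m : ℝ} (ha : a ∈ Ioc (0 : ℝ) 1) (hb : b ∈ Ioc (0 : ℝ) 1)
    (hm : m ∈ Icc (0 : ℝ) 1) : (1 - m) * a + m * b ∈ Ioc (0 : ℝ) 1 := by
  obtain ⟨a0, a1⟩ := ha
  obtain ⟨b0, b1⟩ := hb
  obtain ⟨m0, m1⟩ := hm
  constructor
  · rcases m0.eq_or_lt with h | h
    · rw [← h]; simpa using a0
    · have := mul_pos h b0
      have := mul_nonneg (sub_nonneg.2 m1) a0.le
      linarith
  · nlinarith

theorem Mon_cst {a b : ℝ} (ha : a ∈ Ioc (0 : ℝ) 1) (hb : b ∈ Ioc (0 : ℝ) 1) :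
    Mon fun m => (cst ((1 - m) * a + m * b))⁻¹ := by
  refine Mon.inv ?_ fun m hm => KF_cst.pos _ (seg_mem ha hb hm)
  rcases le_total a b with h | h
  · left; intro x hx y hy hxy
    refine KF_cst.mono _ (seg_mem ha hb hx) _ (seg_mem ha hb hy) ?_
    nlinarith
  · right; intro x hx y hy hxy
    refine KF_cst.mono _ (seg_mem ha hb hy) _ (seg_mem ha hb hx) ?_
    nlinarith

theorem cc_pos {a b : ℝ} (ha : a ∈ Ioc (0 : ℝ) 1) (hb : b ∈ Ioc (0 : ℝ) 1) : 0 < cc a b :=
  inv_pos.2 (integral_pos_of_Mon (Mon_cst ha hb) fun _ hm =>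
    inv_pos.2 (KF_cst.pos _ (seg_mem ha hb hm)))

/-- Goodness of `c`. -/
theorem Good.cc {J : X → ℝ} {J' : Y → ℝ} {u v : X → ℝ} {u' v' : Y → ℝ} (hJ : ∀ x, 0 < J x)
    (hJ' : ∀ y, 0 ≤ J' y) (h : Good T J J')
    (h1 : Good T (fun x => J x * u x) (fun y => J' y * u' y))
    (h2 : Good T (fun x => J x * v x) (fun y => J' y * v' y))
    (hu : ∀ x, u x ∈ Ioc (0 : ℝ) 1) (hv : ∀ x, v x ∈ Ioc (0 : ℝ) 1)
    (hu' : ∀ y, u' y ∈ Ioc (0 : ℝ) 1) (hv' : ∀ y, v' y ∈ Ioc (0 : ℝ) 1) :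
    Good T (fun x => J x * H327.cc (u x) (v x)) (fun y => J' y * H327.cc (u' y) (v' y)) := by
  refine Good.ser (T := T) (J := J) (J' := J') (α := fun m x => cst ((1 - m) * u x + m * v x))
    (β := fun m y => cst ((1 - m) * u' y + m * v' y)) (fun m hm => ?_) hJ hJ'
    (fun m hm x => KF_cst.pos _ (seg_mem (hu x) (hv x) hm))
    (fun m hm y => KF_cst.pos _ (seg_mem (hu' y) (hv' y) hm))
    (fun x => Mon_cst (hu x) (hv x)) (fun y => Mon_cst (hu' y) (hv' y))
  refine Good.kf KF_cst h ?_ hJ hJ' (fun x => seg_mem (hu x) (hv x) hm)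
    (fun y => seg_mem (hu' y) (hv' y) hm)
  exact ((h1.smul (sub_nonneg.2 hm.2)).add (h2.smul hm.1)).congr (fun x => by ring)
    (fun y => by ring)

/-- The closed formula for `c`. -/
theorem cc_formula {z z' : ℝ} (hz : 0 ≤ z) (hz' : 0 ≤ z') :
    Fh z' - Fh z = 2 * cc (Fh z) (Fh z') * (qh z - qh z') := by
  rcases eq_or_ne z z' with h | h
  · subst h; ring
  have hne : Fh z' - Fh z ≠ 0 := by
    intro h0
    exact h (Fh_strictAnti.injOn hz hz' (by linarith))
  have hc := cc_pos (Fh_mem (z := z)) (Fh_mem (z := z'))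
  have e : ∀ m : ℝ, (cst ((1 - m) * Fh z + m * Fh z'))⁻¹ =
      (fun s => 2 * ((1 + finf s) / (2 * s))) ((Fh z' - Fh z) * m + Fh z) := by
    intro m
    have e0 : (1 - m) * Fh z + m * Fh z' = (Fh z' - Fh z) * m + Fh z := by ring
    rw [e0, cst_inv]
  have h1 : (cc (Fh z) (Fh z'))⁻¹ = (Fh z' - Fh z)⁻¹ * (2 * (qh z - qh z')) := by
    unfold cc
    rw [inv_inv]
    simp only [e]
    rw [intervalIntegral.integral_comp_mul_add (fun s => 2 * ((1 + finf s) / (2 * s))) hne (Fh z),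
      smul_eq_mul, intervalIntegral.integral_const_mul]
    simp only [mul_zero, zero_add, mul_one, sub_add_cancel]
    congr 2
    have i1 := Uf_integrable KF_finf (Fh_mem (z := z)) (Fh_mem (z := z'))
    have i2 := Uf_integrable KF_finf (Fh_mem (z := z')) (⟨one_pos, le_refl _⟩ : (1 : ℝ) ∈ Ioc (0 : ℝ) 1)
    have h2 := intervalIntegral.integral_add_adjacent_intervals i1 i2
    have h3 := Uf_finf hz
    have h4 := Uf_finf hz'
    unfold Uf at h3 h4
    rw [h3, h4] at h2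
    linarith
  have h2 : cc (Fh z) (Fh z') * (cc (Fh z) (Fh z'))⁻¹ = 1 := mul_inv_cancel₀ hc.ne'
  rw [h1] at h2
  field_simp at h2
  linarith

/-- The middle conductance of the bridge. -/
def cW (w b : ℝ) : ℝ := cc (Fh (w / 2)) (Fh (b / 2))

/-- The total `q(w) + q(b) + 2c`. -/
def QW (w b : ℝ) : ℝ := qh (w / 2) + qh (b / 2) + 2 * cW w b

/-- The optimal potentials. -/
def xW (w b : ℝ) : ℝ := (1 - (w + b) / (2 * QW w b)) / 2
def yW (w b : ℝ) : ℝ := (1 + (w + b) / (2 * QW w b)) / 2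

/-- The effective conductance. -/
def GW (w b : ℝ) : ℝ := qh (b / 2) - b * (w + b) / (4 * QW w b)

theorem cW_pos (w b : ℝ) : 0 < cW w b := cc_pos Fh_mem Fh_mem

theorem QW_pos (w b : ℝ) : 0 < QW w b := by
  have := cW_pos w b
  have := one_le_qh (w / 2)
  have := one_le_qh (b / 2)
  unfold QW; linarith

theorem QW_rel (w b : ℝ) : QW w b * (qh (w / 2) - qh (b / 2)) = (w ^ 2 - b ^ 2) / 4 := by
  have h1 := cc_formula (abs_nonneg (w / 2)) (abs_nonneg (b / 2))
  simp only [Fh_abs, qh_abs] at h1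
  have h2 := qh_sq (w / 2)
  have h3 := qh_sq (b / 2)
  unfold QW cW
  nlinarith

theorem abs_lt_QW (w b : ℝ) : |w + b| < 2 * QW w b := by
  have h1 := abs_lt_qh (w / 2)
  have h2 := abs_lt_qh (b / 2)
  have h3 := cW_pos w b
  have h4 : |w + b| ≤ 2 * (|w / 2| + |b / 2|) := by
    rw [abs_div, abs_div, abs_two]
    have := abs_add_le w b
    linarith
  unfold QW; linarith

theorem xW_pos (w b : ℝ) : 0 < xW w b := by
  have h := QW_pos w b
  have h1 : (w + b) / (2 * QW w b) < 1 := by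
    rw [div_lt_one (by positivity)]
    exact (le_abs_self _).trans_lt (abs_lt_QW w b)
  unfold xW; linarith

theorem yW_pos (w b : ℝ) : 0 < yW w b := by
  have h := QW_pos w b
  have h1 : -1 < (w + b) / (2 * QW w b) := by
    rw [lt_div_iff₀ (by positivity)]
    have := (abs_lt.1 (abs_lt_QW w b)).1
    linarith
  unfold yW; linarith

theorem xW_add_yW (w b : ℝ) : xW w b + yW w b = 1 := by unfold xW yW; ring

theorem kirch1 (w b : ℝ) :
    (p1 w + p0 b + cW w b) * xW w b - cW w b * yW w b = p0 b := by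
  have h := (QW_pos w b).ne'
  have h1 := QW_rel w b
  have h2 : 2 * cW w b = QW w b - qh (w / 2) - qh (b / 2) := by unfold QW; ring
  unfold xW yW p1 p0
  have h3 : cW w b = (QW w b - qh (w / 2) - qh (b / 2)) / 2 := by linarith
  rw [h3]
  field_simp
  nlinarith

theorem kirch0 (w b : ℝ) :
    (p0 w + p1 b + cW w b) * yW w b - cW w b * xW w b = p1 b := by
  have h := (QW_pos w b).ne'
  have h1 := QW_rel w b
  have h2 : 2 * cW w b = QW w b - qh (w / 2) - qh (b / 2) := by unfold QW; ring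
  unfold xW yW p1 p0
  have h3 : cW w b = (QW w b - qh (w / 2) - qh (b / 2)) / 2 := by linarith
  rw [h3]
  field_simp
  nlinarith

theorem GW_eq_flow (w b : ℝ) : GW w b = p0 b * (1 - xW w b) + p1 b * (1 - yW w b) := by
  have h := (QW_pos w b).ne'
  unfold GW xW yW p0 p1
  field_simp
  ring

/-- The energy at the optimal potentials. -/
theorem GW_energy (w b : ℝ) :
    p1 w * xW w b ^ 2 + p0 b * (1 - xW w b) ^ 2 + p0 w * yW w b ^ 2 + p1 b * (1 - yW w b) ^ 2 +
      cW w b * (xW w b - yW w b) ^ 2 = GW w b := by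
  have h1 := kirch1 w b
  have h0 := kirch0 w b
  rw [GW_eq_flow]
  linear_combination (xW w b) * h1 + (yW w b) * h0

/-- The bridge inequality for real potentials. -/
theorem real_bridge (w b ζ ξ υ : ℝ) :
    GW w b * ζ ^ 2 ≤ p1 w * ξ ^ 2 + p0 b * (ζ - ξ) ^ 2 + p0 w * υ ^ 2 + p1 b * (ζ - υ) ^ 2 +
      cW w b * (ξ - υ) ^ 2 := by
  have h1 := kirch1 w b
  have h0 := kirch0 w b
  have hG := GW_eq_flow w b
  have e : p1 w * ξ ^ 2 + p0 b * (ζ - ξ) ^ 2 + p0 w * υ ^ 2 + p1 b * (ζ - υ) ^ 2 +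
      cW w b * (ξ - υ) ^ 2 = GW w b * ζ ^ 2 + ((p1 w + p0 b) * (ξ - xW w b * ζ) ^ 2 +
      (p0 w + p1 b) * (υ - yW w b * ζ) ^ 2 +
      cW w b * ((ξ - xW w b * ζ) - (υ - yW w b * ζ)) ^ 2) := by
    rw [hG]
    linear_combination (2 * ξ * ζ - xW w b * ζ ^ 2) * h1 + (2 * υ * ζ - yW w b * ζ ^ 2) * h0
  rw [e]
  have := p0_pos w
  have := p1_pos w
  have := p0_pos b
  have := p1_pos b
  have := cW_pos w b
  have : 0 ≤ (p1 w + p0 b) * (ξ - xW w b * ζ) ^ 2 + (p0 w + p1 b) * (υ - yW w b * ζ) ^ 2 +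
      cW w b * ((ξ - xW w b * ζ) - (υ - yW w b * ζ)) ^ 2 := by positivity
  linarith

theorem bridgeLB (w b : ℝ) : BridgeLB (p1 w) (p0 b) (p0 w) (p1 b) (cW w b) (GW w b) := by
  intro ζ ξ υ
  have h1 := real_bridge w b ζ.re ξ.re υ.re
  have h2 := real_bridge w b ζ.im ξ.im υ.im
  unfold energy
  simp only [Complex.sq_norm, Complex.normSq_apply, Complex.sub_re, Complex.sub_im]
  nlinarith

theorem bridgeLB_mul {J : ℝ} (hJ : 0 ≤ J) (w b : ℝ) :
    BridgeLB (J * p1 w) (J * p0 b) (J * p0 w) (J * p1 b) (J * cW w b) (J * GW w b) := by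
  intro ζ ξ υ
  have h := mul_le_mul_of_nonneg_left (bridgeLB w b ζ ξ υ) hJ
  unfold energy at h ⊢
  linarith

/-- **Operator inequality, general form**: with arbitrary (possibly smaller) source forms. -/
theorem Good.oi {J : X → ℝ} {J' : Y → ℝ} {w b : X → ℝ} {w' b' : Y → ℝ} (hJ : ∀ x, 0 < J x)
    (hJ' : ∀ y, 0 ≤ J' y) {P1 P0 R1 R0 : X → ℝ} (h : Good T J J')
    (h1 : Good T P1 (fun y => J' y * p1 (w' y))) (h0 : Good T P0 (fun y => J' y * p0 (w' y)))
    (k1 : Good T R1 (fun y => J' y * p0 (b' y))) (k0 : Good T R0 (fun y => J' y * p1 (b' y)))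
    (e1 : ∀ x, P1 x ≤ J x * p1 (w x)) (e0 : ∀ x, P0 x ≤ J x * p0 (w x))
    (f1 : ∀ x, R1 x ≤ J x * p0 (b x)) (f0 : ∀ x, R0 x ≤ J x * p1 (b x)) :
    Good T (fun i => P1 i * xW (w i) (b i) ^ 2 + R1 i * (1 - xW (w i) (b i)) ^ 2 +
      P0 i * yW (w i) (b i) ^ 2 + R0 i * (1 - yW (w i) (b i)) ^ 2 +
      (J i * cW (w i) (b i)) * (xW (w i) (b i) - yW (w i) (b i)) ^ 2)
      (fun y => J' y * GW (w' y) (b' y)) := by
  have g1 := Good.Fh hJ hJ' (h1.mono e1 fun y => le_refl _) (h0.mono e0 fun y => le_refl _)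
  have g2 := Good.Fh hJ hJ' (k0.mono f0 fun y => le_refl _) (k1.mono f1 fun y => le_refl _)
  have g3 := Good.cc hJ hJ' h g1 g2 (fun _ => Fh_mem) (fun _ => Fh_mem) (fun _ => Fh_mem)
    (fun _ => Fh_mem)
  exact Good.bridge h1 k1 h0 k0 g3 (fun y => bridgeLB_mul (hJ' y) (w' y) (b' y)) _ _

/-- **Operator inequality**: the kernel `GW` is good. -/
theorem Good.GW {J : X → ℝ} {J' : Y → ℝ} {w b : X → ℝ} {w' b' : Y → ℝ} (hJ : ∀ x, 0 < J x)
    (hJ' : ∀ y, 0 ≤ J' y) (h : Good T J J')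
    (h1 : Good T (fun x => J x * p1 (w x)) (fun y => J' y * p1 (w' y)))
    (h0 : Good T (fun x => J x * p0 (w x)) (fun y => J' y * p0 (w' y)))
    (k1 : Good T (fun x => J x * p1 (b x)) (fun y => J' y * p1 (b' y)))
    (k0 : Good T (fun x => J x * p0 (b x)) (fun y => J' y * p0 (b' y))) :
    Good T (fun x => J x * H327.GW (w x) (b x)) (fun y => J' y * H327.GW (w' y) (b' y)) := by
  refine (Good.oi (w := w) (b := b) hJ hJ' h h1 h0 k0 k1 (fun x => le_refl _)
    (fun x => le_refl _) (fun x => le_refl _) (fun x => le_refl _)).congr (fun x => ?_)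
    (fun y => rfl)
  rw [← GW_energy]
  ring

/-- The kernel identity `(b - w) G = b p₀(w) - w p₀(b)`. -/
theorem GW_identity (w b : ℝ) : (b - w) * GW w b = b * p0 w - w * p0 b := by
  have h := (QW_pos w b).ne'
  have h1 := QW_rel w b
  unfold GW p0
  field_simp
  linear_combination (-8 * b) * h1

theorem GW_pos (w b : ℝ) : 0 < GW w b := by
  rw [← GW_energy]
  have := p0_pos w
  have := p1_pos w
  have := p0_pos b
  have := p1_pos b
  have := cW_pos w b
  have := xW_pos w b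
  have := yW_pos w b
  positivity

end

end Vale.Agent.P369.H327
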